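import Mathlib
import Crest.Prelude.Def_AsymptoticConvexity

set_option autoImplicit false

namespace Crest.Agent.Row125

open Crest.AnalysisR Filter Topology

theorem convex_aux {X : Type*} [AddCommGroup X] [Module ℝ X] (N : X → ℝ)
    (hadd : ∀ x y : X, N (x + y) ≤ N x + N y) (hsmul : ∀ (a : ℝ) (x : X), N (a • x) = abs a * N x)
    (x y : X) (hx : N x = 1) (t0 t c : ℝ) (ht0 : 0 < t0) (htt : t0 ≤ t) (hc : 0 < c)
    (hmod : c ≤ N (x + t0 • y) - 1) : 1 + c ≤ N (x + t • y) := by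
  have htpos : 0 < t := lt_of_lt_of_le ht0 htt
  have hr0 : 0 < t0 / t := div_pos ht0 htpos
  have hr1 : t0 / t ≤ 1 := (div_le_one htpos).mpr htt
  have heq : x + t0 • y = (1 - t0 / t) • x + (t0 / t) • (x + t • y) := by
    rw [smul_add, smul_smul, div_mul_cancel₀ _ htpos.ne', sub_smul, one_smul]
    abel
  have h1 : N (x + t0 • y) ≤ (1 - t0 / t) * 1 + (t0 / t) * N (x + t • y) := by
    rw [heq]
    refine (hadd _ _).trans ?_
    rw [hsmul, hsmul, hx, abs_of_nonneg (by linarith), abs_of_pos hr0]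
  have h3 : c ≤ (t0 / t) * (N (x + t • y) - 1) := by nlinarith
  by_contra hcon
  push Not at hcon
  have h4 : (t0 / t) * (N (x + t • y) - 1) < (t0 / t) * c := by
    apply mul_lt_mul_of_pos_left _ hr0
    linarith
  have h5 : (t0 / t) * c ≤ 1 * c := mul_le_mul_of_nonneg_right hr1 hc.le
  linarith

theorem scale_aux {X : Type*} [AddCommGroup X] [Module ℝ X] (N : X → ℝ)
    (hsmul : ∀ (a : ℝ) (x : X), N (a • x) = abs a * N x)
    (x y : X) (hx : 0 < N x) (hy : 0 < N y) :
    N (x + y) = N x * N ((N x)⁻¹ • x + (N y / N x) • ((N y)⁻¹ • y)) := by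
  have e1 : N x * (N x)⁻¹ = 1 := mul_inv_cancel₀ hx.ne'
  have e2 : N x * (N y / N x * (N y)⁻¹) = 1 := by field_simp
  have : x + y = N x • ((N x)⁻¹ • x + (N y / N x) • ((N y)⁻¹ • y)) := by
    rw [smul_add, smul_smul, smul_smul, smul_smul, mul_assoc, e1, e2, one_smul, one_smul]
  conv_lhs => rw [this]
  rw [hsmul, abs_of_pos hx]

/-- Tree/game obstruction to AUC renormings. -/
theorem not_isAUC_of_game (E : RealBanach) (B δ : ℝ) (hδ : 0 < δ)
    (h : letI := E.normed; letI := E.space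
      ∀ n : ℕ, ∃ A : ℕ → Set E.X, (∃ x ∈ A 0, δ ≤ ‖x‖) ∧ (∀ i ≤ n, ∀ x ∈ A i, ‖x‖ ≤ B) ∧
        ∀ i < n, ∀ x ∈ A i, ∀ F : Set E.X, E.IsCof F → ∀ ε : ℝ, 0 < ε →
          ∃ z ∈ A (i + 1), ∃ y ∈ F, ‖z - x - y‖ < ε ∧ δ ≤ ‖z - x‖)
    (N : E.X → ℝ) (hN : E.IsEquivNorm N) : ¬ E.IsAUC N := by
  let := E.normed
  let := E.space
  intro hA
  obtain ⟨hadd, hsmul, a, b, ha, hab⟩ := hN
  -- choose a positive upper constant
  set b' : ℝ := max b 1 with hb'
  have hb'pos : 0 < b' := lt_of_lt_of_le one_pos (le_max_right _ _)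
  have hub : ∀ x : E.X, N x ≤ b' * ‖x‖ := fun x =>
    (hab x).2.trans (mul_le_mul_of_nonneg_right (le_max_left _ _) (norm_nonneg x))
  have hlb : ∀ x : E.X, a * ‖x‖ ≤ N x := fun x => (hab x).1
  set B' : ℝ := max B 1 with hB'
  have hB'pos : 0 < B' := lt_of_lt_of_le one_pos (le_max_right _ _)
  set t0 : ℝ := (a * (δ / 2)) / (b' * B') with ht0
  have ht0pos : 0 < t0 := by positivity
  obtain ⟨c, hc, hAc⟩ := hA t0 ht0pos
  -- choose n with (1 + c/2)^n * (a δ) > b' B'
  obtain ⟨n, hn⟩ : ∃ n : ℕ, b' * B' / (a * δ) < (1 + c / 2) ^ n :=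
    pow_unbounded_of_one_lt _ (by linarith)
  obtain ⟨A, ⟨x0, hx0, hx0n⟩, hAB, hstep⟩ := h n
  have key : ∀ i ≤ n, ∃ x ∈ A i, (1 + c / 2) ^ i * (a * δ) ≤ N x := by
    intro i
    induction i with
    | zero =>
      intro _
      refine ⟨x0, hx0, ?_⟩
      have := hlb x0
      have h2 : a * δ ≤ a * ‖x0‖ := mul_le_mul_of_nonneg_left hx0n ha.le
      simpa using h2.trans this
    | succ i ih =>
      intro hi
      obtain ⟨x, hx, hNx⟩ := ih (by omega)
      have hpow : (1 : ℝ) ≤ (1 + c / 2) ^ i := one_le_pow₀ (by linarith)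
      have haδ : 0 < a * δ := by positivity
      have hNx' : a * δ ≤ N x := le_trans (by nlinarith) hNx
      have hNxpos : 0 < N x := lt_of_lt_of_le haδ hNx'
      have hxB : ‖x‖ ≤ B' := (hAB i (by omega) x hx).trans (le_max_left _ _)
      have hNxB : N x ≤ b' * B' := (hub x).trans (mul_le_mul_of_nonneg_left hxB hb'pos.le)
      -- normalise
      have hNx1 : N ((N x)⁻¹ • x) = 1 := by
        rw [hsmul, abs_of_pos (inv_pos.mpr hNxpos), inv_mul_cancel₀ hNxpos.ne']
      obtain ⟨F, hF, hFy⟩ := hAc _ hNx1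
      set ε : ℝ := min (δ / 2) ((c / 2) * (a * δ) / b') with hε
      have hεpos : 0 < ε := by
        apply lt_min <;> positivity
      obtain ⟨z, hz, y, hyF, hzy, hzx⟩ := hstep i (by omega) x hx F hF ε hεpos
      have hynorm : δ / 2 ≤ ‖y‖ := by
        have h1 : ‖z - x‖ ≤ ‖z - x - y‖ + ‖y‖ := by
          simpa using norm_add_le (z - x - y) y
        have h2 : ε ≤ δ / 2 := min_le_left _ _
        linarith
      have hNy : a * (δ / 2) ≤ N y := by
        have := hlb y
        have h2 : a * (δ / 2) ≤ a * ‖y‖ := mul_le_mul_of_nonneg_left hynorm ha.le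
        exact h2.trans this
      have hNypos : 0 < N y := lt_of_lt_of_le (by positivity) hNy
      have hNy1 : N ((N y)⁻¹ • y) = 1 := by
        rw [hsmul, abs_of_pos (inv_pos.mpr hNypos), inv_mul_cancel₀ hNypos.ne']
      -- scaled vector in F
      obtain ⟨S, hSF, hclosed, hfin⟩ := hF
      have hyF' : (N y)⁻¹ • y ∈ F := by
        rw [← hSF] at hyF ⊢
        exact S.smul_mem _ hyF
      have hmod := hFy _ hyF' hNy1
      -- t = N y / N x ≥ t0
      set t : ℝ := N y / N x with ht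
      have htpos : 0 < t := div_pos hNypos hNxpos
      have htt0 : t0 ≤ t := by
        rw [ht0, ht]
        exact div_le_div₀ hNypos.le hNy hNxpos hNxB
      have hconv := convex_aux N hadd hsmul _ _ hNx1 t0 t c ht0pos htt0 hc hmod
      have hxy := scale_aux N hsmul x y hNxpos hNypos
      have hxy2 : (1 + c) * N x ≤ N (x + y) := by
        rw [hxy, mul_comm]
        exact mul_le_mul_of_nonneg_left hconv hNxpos.le
      have hz1 : N (x + y) ≤ N z + b' * ε := by
        have : x + y = z + (-1 : ℝ) • (z - x - y) := by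
          rw [neg_smul, one_smul]; abel
        rw [this]
        refine (hadd _ _).trans ?_
        rw [hsmul]
        have h1 := hub (z - x - y)
        have h2 : b' * ‖z - x - y‖ ≤ b' * ε := mul_le_mul_of_nonneg_left hzy.le hb'pos.le
        simp only [abs_neg, abs_one, one_mul]
        linarith
      have hbε : b' * ε ≤ (c / 2) * (a * δ) := by
        have h1 : ε ≤ (c / 2) * (a * δ) / b' := min_le_right _ _
        have h2 := mul_le_mul_of_nonneg_left h1 hb'pos.le
        rwa [mul_div_cancel₀ _ hb'pos.ne'] at h2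
      refine ⟨z, hz, ?_⟩
      have h3 : (c / 2) * (a * δ) ≤ (c / 2) * N x := mul_le_mul_of_nonneg_left hNx' (by linarith)
      have h4 : (1 + c / 2) * N x ≤ N z := by nlinarith
      calc (1 + c / 2) ^ (i + 1) * (a * δ) = (1 + c / 2) * ((1 + c / 2) ^ i * (a * δ)) := by ring
        _ ≤ (1 + c / 2) * N x := mul_le_mul_of_nonneg_left hNx (by linarith)
        _ ≤ N z := h4
  obtain ⟨x, hx, hNx⟩ := key n le_rfl
  have hxB : ‖x‖ ≤ B' := (hAB n le_rfl x hx).trans (le_max_left _ _)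
  have hNxB : N x ≤ b' * B' := (hub x).trans (mul_le_mul_of_nonneg_left hxB hb'pos.le)
  have haδ : 0 < a * δ := by positivity
  rw [div_lt_iff₀ haδ] at hn
  linarith

/-- If `φ (d k) → 0` for all functionals, then `d k` is eventually close to any closed
finite-codimensional subspace. -/
theorem eventually_close_of_weaklyNull {X : Type*} [NormedAddCommGroup X] [NormedSpace ℝ X]
    (d : ℕ → X) (hd : ∀ φ : StrongDual ℝ X, Tendsto (fun k => φ (d k)) atTop (𝓝 0))
    (S : Submodule ℝ X) (hS : IsClosed (S : Set X)) (hfin : FiniteDimensional ℝ (X ⧸ S))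
    (ε : ℝ) (hε : 0 < ε) :
    ∀ᶠ k in atTop, ∃ y ∈ S, ‖d k - y‖ < ε := by
  have : IsClosed (S : Set X) := hS
  let π : X →L[ℝ] (X ⧸ S) := S.mkQL
  let bas := Module.finBasis ℝ (X ⧸ S)
  have hπ : Tendsto (fun k => π (d k)) atTop (𝓝 0) := by
    have h1 : Tendsto (fun k => bas.equivFunL (π (d k))) atTop (𝓝 0) := by
      rw [tendsto_pi_nhds]
      intro i
      have := hd (((ContinuousLinearMap.proj (R := ℝ) (φ := fun _ => ℝ) i).comp
        (bas.equivFunL : (X ⧸ S) →L[ℝ] (_ → ℝ))).comp π)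
      simpa using this
    have h2 := (bas.equivFunL.symm.continuous.tendsto 0).comp h1
    simpa [Function.comp_def] using h2
  have hn : Tendsto (fun k => ‖π (d k)‖) atTop (𝓝 0) := by simpa using hπ.norm
  filter_upwards [hn.eventually (gt_mem_nhds hε)] with k hk
  have hk' : ‖(Submodule.Quotient.mk (d k) : X ⧸ S)‖ < ε := hk
  obtain ⟨m, hm, hmn⟩ := QuotientAddGroup.norm_lt_iff.mp hk'
  refine ⟨d k - m, ?_, by simpa using hmn⟩
  have : (Submodule.Quotient.mk (d k) : X ⧸ S) = Submodule.Quotient.mk m := hm.symm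
  exact (Submodule.Quotient.eq S).mp this

/-- `ℓ²`-dominated sequences are weakly null. -/
theorem weaklyNull_of_l2_dominated {X : Type*} [NormedAddCommGroup X] [NormedSpace ℝ X]
    (d : ℕ → X) (C : ℝ)
    (h : ∀ (s : Finset ℕ) (c : ℕ → ℝ), ‖∑ k ∈ s, c k • d k‖ ≤ C * √(∑ k ∈ s, c k ^ 2))
    (φ : StrongDual ℝ X) : Tendsto (fun k => φ (d k)) atTop (𝓝 0) := by
  have hsum : Summable (fun k => φ (d k) ^ 2) := by
    refine summable_of_sum_le (c := (‖φ‖ * C) ^ 2) (fun k => sq_nonneg _) ?_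
    intro s
    set T : ℝ := ∑ k ∈ s, φ (d k) ^ 2 with hT
    have hT0 : 0 ≤ T := Finset.sum_nonneg fun k _ => sq_nonneg _
    have h1 : φ (∑ k ∈ s, φ (d k) • d k) = T := by
      rw [map_sum, hT]
      refine Finset.sum_congr rfl fun k _ => ?_
      rw [map_smul, smul_eq_mul, sq]
    have h2 : T ≤ ‖φ‖ * (C * √T) := by
      calc T = φ (∑ k ∈ s, φ (d k) • d k) := h1.symm
        _ ≤ ‖φ (∑ k ∈ s, φ (d k) • d k)‖ := le_abs_self _
        _ ≤ ‖φ‖ * ‖∑ k ∈ s, φ (d k) • d k‖ := φ.le_opNorm _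
        _ ≤ ‖φ‖ * (C * √T) := mul_le_mul_of_nonneg_left (h s _) (norm_nonneg _)
    rcases hT0.eq_or_lt with h0 | h0
    · rw [← h0]; positivity
    · have hs : 0 < √T := Real.sqrt_pos.mpr h0
      have h3 : √T * √T = T := Real.mul_self_sqrt hT0
      have h4 : √T ≤ ‖φ‖ * C := by
        by_contra hcon
        push Not at hcon
        nlinarith
      nlinarith
  have h0 := hsum.tendsto_atTop_zero
  have h1 : Tendsto (fun k => |φ (d k)|) atTop (𝓝 0) := by
    have := (Real.continuous_sqrt.tendsto 0).comp h0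
    simpa [Function.comp_def, Real.sqrt_sq_eq_abs] using this
  exact (tendsto_zero_iff_abs_tendsto_zero _).mpr h1

/-- Tree form of the obstruction. -/
theorem not_isAUC_of_tree (E : RealBanach) (B δ : ℝ) (hδ : 0 < δ)
    (h : letI := E.normed; letI := E.space
      ∀ n : ℕ, ∃ x : List ℕ → E.X, δ ≤ ‖x []‖ ∧ (∀ v, v.length ≤ n → ‖x v‖ ≤ B) ∧
        ∀ v, v.length < n → (∀ a, δ ≤ ‖x (a :: v) - x v‖) ∧
          ∀ φ : StrongDual ℝ E.X, Tendsto (fun a => φ (x (a :: v) - x v)) atTop (𝓝 0))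
    (N : E.X → ℝ) (hN : E.IsEquivNorm N) : ¬ E.IsAUC N := by
  let := E.normed
  let := E.space
  refine not_isAUC_of_game E B δ hδ ?_ N hN
  intro n
  obtain ⟨x, hx0, hxB, hx⟩ := h n
  refine ⟨fun i => {z | ∃ v : List ℕ, v.length = i ∧ x v = z}, ⟨x [], ⟨[], rfl, rfl⟩, hx0⟩, ?_, ?_⟩
  · rintro i hi _ ⟨v, hv, rfl⟩
    exact hxB v (by omega)
  · rintro i hi _ ⟨v, hv, rfl⟩ F hF ε hε
    obtain ⟨S, hSF, hclosed, hfin⟩ := hF
    obtain ⟨h1, h2⟩ := hx v (by omega)
    have hcl : IsClosed (S : Set E.X) := by rw [hSF]; exact hclosed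
    have h3 := eventually_close_of_weaklyNull (fun a => x (a :: v) - x v) h2 S hcl hfin ε hε
    obtain ⟨a, y, hy, hay⟩ := h3.exists
    refine ⟨x (a :: v), ⟨a :: v, by simp [hv], rfl⟩, y, ?_, hay, h1 a⟩
    rw [← hSF]; exact hy

/-- A finite-dimensional space is AUC in its own norm (vacuously), so a space that is not AUC in
any equivalent norm is infinite-dimensional. -/
theorem infiniteDim_of_not_isAUC (E : RealBanach)
    (h : ∀ N : E.X → ℝ, E.IsEquivNorm N → ¬ E.IsAUC N) :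
    letI := E.normed; letI := E.space
    ¬ FiniteDimensional ℝ E.X := by
  let := E.normed
  let := E.space
  intro hfin
  refine h (fun x => ‖x‖) ⟨fun x y => norm_add_le x y, fun a x => norm_smul a x,
    1, 1, one_pos, fun x => ⟨by simp, by simp⟩⟩ ?_
  intro t ht
  refine ⟨1, one_pos, fun x hx => ⟨{0}, ⟨⊥, by simp, isClosed_singleton, inferInstance⟩, ?_⟩⟩
  intro y hy hy1
  simp only [Set.mem_singleton_iff] at hy
  rw [hy] at hy1
  simp at hy1

end Crest.Agent.Row125
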