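import Mathlib
import Crest.Prelude.Def_AsymptoticConvexity
import Crest.Prelude.Def_TreePotentials
import Crest.Agent.Row125.Basic

set_option autoImplicit false

namespace Crest.Agent.Row125

open Crest.AnalysisR Crest.AnalysisR.TreePotential Filter Topology

/-- value of `p` at the last ancestor in `S`. -/
noncomputable def lastVal (S : Set (List ℕ)) (p : List ℕ → ℝ) : List ℕ → ℝ
  | [] => p []
  | a :: v => open Classical in if a :: v ∈ S then p (a :: v) else lastVal S p v

/-- increments of a potential. -/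
noncomputable def incr (P : List ℕ → ℝ) : List ℕ → ℝ
  | [] => P []
  | a :: v => P (a :: v) - P v

theorem pathPotential_incr (P : List ℕ → ℝ) (s : List ℕ) : pathPotential (incr P) s = P s := by
  induction s with
  | nil => rfl
  | cons a v ih => simp [pathPotential, ih, incr]

theorem abs_lastVal_le (S : Set (List ℕ)) (p : List ℕ → ℝ) (hp : ∀ s, |p s| ≤ 1) (s : List ℕ) :
    |lastVal S p s| ≤ 1 := by
  induction s with
  | nil => exact hp []
  | cons a v ih =>
    simp only [lastVal]
    split_ifs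
    · exact hp _
    · exact ih

theorem lastVal_of_mem (S : Set (List ℕ)) (p : List ℕ → ℝ) (s : List ℕ) (hs : s ∈ S) :
    lastVal S p s = p s := by
  cases s with
  | nil => rfl
  | cons a v => simp [lastVal, hs]

/-- clamp of `c` to `[-1 + |d|/2, 1 - |d|/2]`. -/
noncomputable def clampm (c d : ℝ) : ℝ := max (-1 + |d| / 2) (min (1 - |d| / 2) c)

theorem clampm_zero (c : ℝ) (hc : |c| ≤ 1) : clampm c 0 = c := by
  have := abs_le.mp hc
  simp [clampm, min_eq_right this.2, max_eq_right this.1]

theorem clampm_bound (c d : ℝ) (hd : |d| ≤ 2) : |clampm c d + d / 2| ≤ 1 ∧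
    |clampm c d - d / 2| ≤ 1 := by
  have h1 : -1 + |d| / 2 ≤ clampm c d := le_max_left _ _
  have h2 : clampm c d ≤ 1 - |d| / 2 := max_le (by linarith) (min_le_left _ _)
  have h3 := neg_abs_le d
  have h4 := le_abs_self d
  constructor <;> rw [abs_le] <;> constructor <;> linarith

theorem clampm_lip (c d d' : ℝ) : |clampm c d - clampm c d'| ≤ |d - d'| / 2 := by
  have h0 : |(|d| - |d'|)| ≤ |d - d'| := abs_abs_sub_abs_le_abs_sub d d'
  have h1 : |max (-1 + |d| / 2) (min (1 - |d| / 2) c) -
      max (-1 + |d'| / 2) (min (1 - |d'| / 2) c)| ≤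
      max |(-1 + |d| / 2) - (-1 + |d'| / 2)| |min (1 - |d| / 2) c - min (1 - |d'| / 2) c| :=
    abs_max_sub_max_le_max _ _ _ _
  have h2 : |min (1 - |d| / 2) c - min (1 - |d'| / 2) c| ≤
      max |(1 - |d| / 2) - (1 - |d'| / 2)| |c - c| := abs_min_sub_min_le_max _ _ _ _
  have h3 : |(-1 + |d| / 2) - (-1 + |d'| / 2)| = |(|d| - |d'|)| / 2 := by
    rw [show (-1 + |d| / 2) - (-1 + |d'| / 2) = (|d| - |d'|) / 2 by ring, abs_div]
    norm_num
  have h4 : |(1 - |d| / 2) - (1 - |d'| / 2)| = |(|d| - |d'|)| / 2 := by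
    rw [show (1 - |d| / 2) - (1 - |d'| / 2) = -((|d| - |d'|) / 2) by ring, abs_neg, abs_div]
    norm_num
  rw [h4, sub_self, abs_zero] at h2
  rw [h3] at h1
  have h5 : 0 ≤ |(|d| - |d'|)| / 2 := by positivity
  rw [max_eq_left h5] at h2
  unfold clampm
  calc _ ≤ _ := h1
    _ ≤ |(|d| - |d'|)| / 2 := max_le le_rfl h2
    _ ≤ |d - d'| / 2 := by linarith

/-- The clamp construction. -/
theorem clamp_exists (f g : List ℕ → ℝ) (hf : ∀ s, |pathPotential f s| ≤ 1)
    (hg : ∀ s, |pathPotential g s| ≤ 1) (S : Set (List ℕ)) (hS0 : [] ∈ S)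
    (hS : ∀ a v, a :: v ∈ S → v ∈ S) (α β : ℝ) (hα : 0 ≤ α) (hα1 : α ≤ 1) (hβ : 0 ≤ β)
    (hβ1 : β ≤ 1) :
    ∃ hp hm : List ℕ → ℝ, (∀ s ∈ S, hp s = α * f s) ∧ (∀ s ∈ S, hm s = α * f s) ∧
      (∀ s, s ∉ S → |hp s| ≤ β * |g s|) ∧ (∀ s, s ∉ S → |hm s| ≤ β * |g s|) ∧
      (∀ s, s ∉ S → hp s - hm s = β * g s) ∧
      (∀ s, |pathPotential hp s| ≤ 1) ∧ (∀ s, |pathPotential hm s| ≤ 1) := by
  classical
  set D : List ℕ → ℝ := fun s => β * (pathPotential g s - lastVal S (pathPotential g) s) with hD
  set C : List ℕ → ℝ := fun s => α * lastVal S (pathPotential f) s with hC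
  have hD2 : ∀ s, |D s| ≤ 2 := by
    intro s
    have h1 := abs_le.mp (hg s)
    have h2 := abs_le.mp (abs_lastVal_le S _ hg s)
    have h3 : |pathPotential g s - lastVal S (pathPotential g) s| ≤ 2 := by
      rw [abs_le]; constructor <;> linarith
    rw [hD]
    simp only [abs_mul, abs_of_nonneg hβ]
    nlinarith [abs_nonneg (pathPotential g s - lastVal S (pathPotential g) s)]
  have hC1 : ∀ s, |C s| ≤ 1 := by
    intro s
    rw [hC]
    simp only [abs_mul, abs_of_nonneg hα]
    nlinarith [abs_lastVal_le S _ hf s, abs_nonneg (lastVal S (pathPotential f) s)]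
  have hDS : ∀ s ∈ S, D s = 0 := by
    intro s hs
    simp [hD, lastVal_of_mem S _ s hs]
  have hCS : ∀ s ∈ S, C s = α * pathPotential f s := by
    intro s hs
    simp [hC, lastVal_of_mem S _ s hs]
  have hDoff : ∀ a v, a :: v ∉ S → D (a :: v) = D v + β * g (a :: v) := by
    intro a v h
    simp only [hD, lastVal, h, if_false, pathPotential]
    ring
  have hCoff : ∀ a v, a :: v ∉ S → C (a :: v) = C v := by
    intro a v h
    simp only [hC, lastVal, h, if_false]
  set Pp : List ℕ → ℝ := fun s => clampm (C s) (D s) + D s / 2 with hPp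
  set Pm : List ℕ → ℝ := fun s => clampm (C s) (D s) - D s / 2 with hPm
  have hPpS : ∀ s ∈ S, Pp s = α * pathPotential f s := by
    intro s hs
    simp only [hPp, hDS s hs]
    rw [clampm_zero _ (hC1 s), hCS s hs]; ring
  have hPmS : ∀ s ∈ S, Pm s = α * pathPotential f s := by
    intro s hs
    simp only [hPm, hDS s hs]
    rw [clampm_zero _ (hC1 s), hCS s hs]; ring
  refine ⟨incr Pp, incr Pm, ?_, ?_, ?_, ?_, ?_, ?_, ?_⟩
  · intro s hs
    cases s with
    | nil => simp only [incr, hPpS _ hs, pathPotential]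
    | cons a v =>
      simp only [incr, hPpS _ hs, hPpS _ (hS a v hs), pathPotential]; ring
  · intro s hs
    cases s with
    | nil => simp only [incr, hPmS _ hs, pathPotential]
    | cons a v =>
      simp only [incr, hPmS _ hs, hPmS _ (hS a v hs), pathPotential]; ring
  · intro s hs
    cases s with
    | nil => exact absurd hS0 hs
    | cons a v =>
      simp only [incr, hPp, hCoff a v hs]
      have h1 := clampm_lip (C v) (D (a :: v)) (D v)
      have h2 : D (a :: v) - D v = β * g (a :: v) := by rw [hDoff a v hs]; ring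
      rw [h2] at h1
      have h3 : clampm (C v) (D (a :: v)) + D (a :: v) / 2 - (clampm (C v) (D v) + D v / 2) =
          (clampm (C v) (D (a :: v)) - clampm (C v) (D v)) + (β * g (a :: v)) / 2 := by
        rw [← h2]; ring
      rw [h3]
      refine (abs_add_le _ _).trans ?_
      rw [abs_div, abs_of_pos (show (0 : ℝ) < 2 by norm_num)]
      have h4 : |β * g (a :: v)| = β * |g (a :: v)| := by rw [abs_mul, abs_of_nonneg hβ]
      rw [h4] at h1 ⊢
      linarith
  · intro s hs
    cases s with
    | nil => exact absurd hS0 hs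
    | cons a v =>
      simp only [incr, hPm, hCoff a v hs]
      have h1 := clampm_lip (C v) (D (a :: v)) (D v)
      have h2 : D (a :: v) - D v = β * g (a :: v) := by rw [hDoff a v hs]; ring
      rw [h2] at h1
      have h3 : clampm (C v) (D (a :: v)) - D (a :: v) / 2 - (clampm (C v) (D v) - D v / 2) =
          (clampm (C v) (D (a :: v)) - clampm (C v) (D v)) - (β * g (a :: v)) / 2 := by
        rw [← h2]; ring
      rw [h3]
      refine (abs_sub _ _).trans ?_
      rw [abs_div, abs_of_pos (show (0 : ℝ) < 2 by norm_num)]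
      have h4 : |β * g (a :: v)| = β * |g (a :: v)| := by rw [abs_mul, abs_of_nonneg hβ]
      rw [h4] at h1 ⊢
      linarith
  · intro s hs
    cases s with
    | nil => exact absurd hS0 hs
    | cons a v =>
      have h2 : D (a :: v) - D v = β * g (a :: v) := by rw [hDoff a v hs]; ring
      simp only [incr, hPp, hPm]
      linarith
  · intro s
    rw [pathPotential_incr]
    exact (clampm_bound _ _ (hD2 s)).1
  · intro s
    rw [pathPotential_incr]
    exact (clampm_bound _ _ (hD2 s)).2

end Crest.Agent.Row125
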