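import Mathlib
import Crest.Prelude.Def_AsymptoticConvexity
import Crest.Prelude.Def_TreePotentials
import Crest.Agent.Row125.Basic
import Crest.Agent.Row125.Potential

set_option autoImplicit false

namespace Crest.Agent.Row125

open Crest.AnalysisR Crest.AnalysisR.TreePotential Filter Topology

/-- Families of tests to which the arguments apply. -/
structure GoodFamily (P : (List ℕ → ℝ) → Prop) (V0 : Set (List ℕ)) : Prop where
  pot : ∀ f, P f → ∀ s, |pathPotential f s| ≤ 1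
  zero : P (fun _ => 0)
  neg : ∀ f, P f → P (fun s => -f s)
  single : ∀ s ∈ V0, P (Pi.single s 1)
  off : ∀ f, P f → ∀ s, s ∉ V0 → f s = 0
  child : ∀ f, P f → ∀ (r : List ℕ) (A : Finset ℕ), ∑ n ∈ A, f (n :: r) ^ 2 ≤ 1
  mix : ∀ f g h, P f → P g → ∀ (S : Set (List ℕ)), [] ∈ S → ∀ α β : ℝ, 0 ≤ α → 0 ≤ β →
    α ^ 2 + β ^ 2 ≤ 1 → (∀ s ∈ S, h s = α * f s) → (∀ s, s ∉ S → |h s| ≤ β * |g s|) →
    (∀ s, |pathPotential h s| ≤ 1) → P h

theorem abs_le_two_of_pot (g : List ℕ → ℝ) (hg : ∀ u, |pathPotential g u| ≤ 1) (s : List ℕ) :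
    |g s| ≤ 2 := by
  cases s with
  | nil =>
    have h0 := hg []
    simp only [pathPotential] at h0
    linarith
  | cons a v =>
    have h1 := hg (a :: v)
    have h2 := hg v
    simp only [pathPotential] at h1
    rw [abs_le] at h1 h2 ⊢
    constructor <;> linarith [h1.1, h1.2, h2.1, h2.2]

variable {P : (List ℕ → ℝ) → Prop}

/-- coordinate vectors. -/
noncomputable def gcoord (hP : ∀ f, P f → ∀ s, |f s| ≤ 2) (s : List ℕ) :
    lp (fun _ : {f // P f} => ℝ) ⊤ :=
  ⟨fun f => f.1 s, memℓp_infty ⟨2, by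
    rintro _ ⟨f, rfl⟩
    exact hP f.1 f.2 s⟩⟩

/-- generated space. -/
noncomputable def gspace (hP : ∀ f, P f → ∀ s, |f s| ≤ 2) :
    Submodule ℝ (lp (fun _ : {f // P f} => ℝ) ⊤) :=
  (Submodule.span ℝ (Set.range (gcoord hP))).topologicalClosure

instance gspace_complete (hP : ∀ f, P f → ∀ s, |f s| ≤ 2) : CompleteSpace (gspace hP) :=
  (Submodule.isClosed_topologicalClosure _).completeSpace_coe

/-- coordinate vectors as elements of the space. -/
noncomputable def gvec (hP : ∀ f, P f → ∀ s, |f s| ≤ 2) (s : List ℕ) : gspace hP :=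
  ⟨gcoord hP s, Submodule.le_topologicalClosure _ (Submodule.subset_span ⟨s, rfl⟩)⟩

/-- evaluation at a test. -/
noncomputable def gev (hP : ∀ f, P f → ∀ s, |f s| ≤ 2) (f : {f // P f}) :
    gspace hP →L[ℝ] ℝ :=
  (lp.evalCLM ℝ (fun _ : {f // P f} => ℝ) ⊤ f).comp (gspace hP).subtypeL

theorem gev_apply (hP : ∀ f, P f → ∀ s, |f s| ≤ 2) (f : {f // P f}) (y : gspace hP) :
    gev hP f y = (y : lp (fun _ : {f // P f} => ℝ) ⊤) f := rfl

theorem gev_gvec (hP : ∀ f, P f → ∀ s, |f s| ≤ 2) (f : {f // P f}) (s : List ℕ) :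
    gev hP f (gvec hP s) = f.1 s := rfl

theorem gev_le_norm (hP : ∀ f, P f → ∀ s, |f s| ≤ 2) (f : {f // P f}) (y : gspace hP) :
    |gev hP f y| ≤ ‖y‖ := by
  rw [gev_apply, Submodule.coe_norm, ← Real.norm_eq_abs]
  exact lp.norm_apply_le_norm (by simp) _ f

theorem gnorm_le (hP : ∀ f, P f → ∀ s, |f s| ≤ 2) (y : gspace hP) (C : ℝ) (hC : 0 ≤ C)
    (h : ∀ f, |gev hP f y| ≤ C) : ‖y‖ ≤ C := by
  rw [Submodule.coe_norm]
  exact lp.norm_le_of_forall_le hC (fun f => by
    have := h f; rwa [gev_apply, ← Real.norm_eq_abs] at this)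

/-- Continuous functionals agreeing on coordinate vectors are equal. -/
theorem gspace_ext (hP : ∀ f, P f → ∀ s, |f s| ≤ 2) (φ ψ : gspace hP →L[ℝ] ℝ)
    (h : ∀ s, φ (gvec hP s) = ψ (gvec hP s)) (y : gspace hP) : φ y = ψ y := by
  have hcl : IsClosed {y : gspace hP | φ y = ψ y} := isClosed_eq φ.continuous ψ.continuous
  obtain ⟨u, hu, hlim⟩ := mem_closure_iff_seq_limit.mp (show (y : lp (fun _ : {f // P f} => ℝ) ⊤) ∈
    closure ((Submodule.span ℝ (Set.range (gcoord hP)) : Submodule ℝ _) : Set _) from y.2)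
  have hmem : ∀ n, u n ∈ gspace hP := fun n => Submodule.le_topologicalClosure _ (hu n)
  have hlim' : Tendsto (fun n => (⟨u n, hmem n⟩ : gspace hP)) atTop (𝓝 y) := by
    rw [tendsto_subtype_rng]
    exact hlim
  refine hcl.mem_of_tendsto hlim' (Eventually.of_forall fun n => ?_)
  have key : ∀ z (hz : z ∈ Submodule.span ℝ (Set.range (gcoord hP))),
      φ ⟨z, Submodule.le_topologicalClosure _ hz⟩ = ψ ⟨z, Submodule.le_topologicalClosure _ hz⟩ := by
    intro z hz
    induction hz using Submodule.span_induction with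
    | mem x hx =>
      obtain ⟨s, rfl⟩ := hx
      exact h s
    | zero =>
      have : (⟨0, Submodule.le_topologicalClosure _ (Submodule.zero_mem _)⟩ : gspace hP) = 0 := rfl
      rw [this, map_zero, map_zero]
    | add x y hx hy h1 h2 =>
      have : (⟨x + y, Submodule.le_topologicalClosure _ (Submodule.add_mem _ hx hy)⟩ :
          gspace hP) = ⟨x, Submodule.le_topologicalClosure _ hx⟩ +
            ⟨y, Submodule.le_topologicalClosure _ hy⟩ := rfl
      rw [this, map_add, map_add, h1, h2]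
    | smul a x hx h1 =>
      have : (⟨a • x, Submodule.le_topologicalClosure _ (Submodule.smul_mem _ a hx)⟩ :
          gspace hP) = a • ⟨x, Submodule.le_topologicalClosure _ hx⟩ := rfl
      rw [this, map_smul, map_smul, h1]
  exact key _ (hu n)

/-- near-norming tests. -/
theorem exists_norming {V0 : Set (List ℕ)} (hG : GoodFamily P V0)
    (hP : ∀ f, P f → ∀ s, |f s| ≤ 2) (y : gspace hP) (ε : ℝ) (hε : 0 < ε) :
    ∃ f : {f // P f}, ‖y‖ - ε ≤ gev hP f y := by
  by_contra hcon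
  push Not at hcon
  have hneg : ∀ f : {f // P f}, gev hP ⟨fun s => -f.1 s, hG.neg _ f.2⟩ y = -gev hP f y := by
    intro f
    exact gspace_ext hP (gev hP ⟨fun s => -f.1 s, hG.neg _ f.2⟩) (-gev hP f) (fun s => by
      rw [neg_apply, gev_gvec, gev_gvec]) y
  have h0 : 0 ≤ ‖y‖ - ε := by
    have h1 := hcon ⟨_, hG.zero⟩
    have h2 := hneg ⟨_, hG.zero⟩
    have h3 : (⟨fun s => -(fun _ : List ℕ => (0 : ℝ)) s, hG.neg _ hG.zero⟩ : {f // P f}) =
        ⟨fun _ => 0, hG.zero⟩ := by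
      apply Subtype.ext; funext s; simp
    rw [h3] at h2
    linarith
  have h1 : ‖y‖ ≤ ‖y‖ - ε := by
    refine gnorm_le hP y _ h0 (fun f => ?_)
    rw [abs_le]
    have h2 := hcon f
    have h3 := hcon ⟨fun s => -f.1 s, hG.neg _ f.2⟩
    rw [hneg f] at h3
    constructor <;> linarith
  linarith

/-- Asymptotic midpoint property. -/
def AMP (X : Type*) [NormedAddCommGroup X] [NormedSpace ℝ X] : Prop :=
  ∀ (x : X) (η : ℝ), 0 < η → ∃ S : Submodule ℝ X, IsClosed (S : Set X) ∧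
    FiniteDimensional ℝ (X ⧸ S) ∧
    ∀ y ∈ S, √(‖x‖ ^ 2 + ‖y‖ ^ 2 / 4) - η ≤ (‖x + y‖ + ‖x - y‖) / 2

/-- the suffix closure of a finite set of vertices. -/
def sufClosure (A : Finset (List ℕ)) : Finset (List ℕ) :=
  insert [] (A.biUnion fun s => s.tails.toFinset)

theorem nil_mem_sufClosure (A : Finset (List ℕ)) : [] ∈ sufClosure A := by
  simp [sufClosure]

theorem subset_sufClosure (A : Finset (List ℕ)) : A ⊆ sufClosure A := by
  intro s hs
  simp only [sufClosure, Finset.mem_insert, Finset.mem_biUnion, List.mem_toFinset, List.mem_tails]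
  right
  exact ⟨s, hs, List.suffix_refl s⟩

theorem sufClosure_closed (A : Finset (List ℕ)) (a : ℕ) (v : List ℕ)
    (h : a :: v ∈ sufClosure A) : v ∈ sufClosure A := by
  simp only [sufClosure, Finset.mem_insert, Finset.mem_biUnion, List.mem_toFinset,
    List.mem_tails] at h ⊢
  rcases h with h | ⟨s, hs, hsuf⟩
  · exact absurd h (by simp)
  · right
    exact ⟨s, hs, (List.suffix_cons a v).trans hsuf⟩

theorem sqrt_sq_add_lip (a a' b : ℝ) (ha : 0 ≤ a) :
    √(a ^ 2 + b ^ 2 / 4) ≤ √(a' ^ 2 + b ^ 2 / 4) + |a - a'| := by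
  have h1 : 0 ≤ a' ^ 2 + b ^ 2 / 4 := by positivity
  have h2 : a' ≤ √(a' ^ 2 + b ^ 2 / 4) := Real.le_sqrt_of_sq_le (by nlinarith [sq_nonneg b])
  apply Real.sqrt_le_iff.mpr
  refine ⟨by positivity, ?_⟩
  have h3 := Real.sq_sqrt h1
  have h4 : a ≤ a' + |a - a'| := by linarith [le_abs_self (a - a')]
  have h5 : a ^ 2 ≤ (a' + |a - a'|) ^ 2 := pow_le_pow_left₀ ha h4 2
  nlinarith [mul_le_mul_of_nonneg_right h2 (abs_nonneg (a - a'))]

theorem optimise (a b X : ℝ) (ha : 0 ≤ a) (hb : 0 ≤ b) (hX : 0 ≤ X)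
    (h : ∀ α β : ℝ, 0 ≤ α → 0 ≤ β → α ^ 2 + β ^ 2 ≤ 1 → α * a + β * b / 2 ≤ X) :
    √(a ^ 2 + b ^ 2 / 4) ≤ X := by
  set M := √(a ^ 2 + b ^ 2 / 4) with hM
  have hMsq : M ^ 2 = a ^ 2 + b ^ 2 / 4 := Real.sq_sqrt (by positivity)
  have hM0 : 0 ≤ M := Real.sqrt_nonneg _
  rcases hM0.eq_or_lt with h0 | h0
  · rw [← h0]; exact hX
  · have h1 := h (a / M) (b / 2 / M) (by positivity) (by positivity) (by
      rw [div_pow, div_pow, ← add_div, div_le_one (by positivity), hMsq]
      ring_nf; rfl)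
    have h2 : a / M * a + b / 2 / M * b / 2 = M := by
      field_simp
      nlinarith
    linarith

theorem finDim_quot_ker {X ι : Type*} [NormedAddCommGroup X] [NormedSpace ℝ X] [Fintype ι]
    (Φ : X →ₗ[ℝ] (ι → ℝ)) : FiniteDimensional ℝ (X ⧸ LinearMap.ker Φ) := by
  have h : FiniteDimensional ℝ (LinearMap.range Φ) := inferInstance
  exact (LinearMap.quotKerEquivRange Φ).symm.finiteDimensional

theorem final_ineq (α β ε nx ny fx gy A B p q r t : ℝ) (hα : 0 ≤ α) (hβ : 0 ≤ β) (hα1 : α ≤ 1)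
    (hβ1 : β ≤ 1) (hε : 0 < ε) (hf : nx - ε / 2 ≤ fx) (hg : ny - ε / 2 ≤ gy)
    (h1 : p = α * fx) (h2 : q = α * fx) (h3 : r - t = β * gy) (h6 : p + r ≤ A) (h7 : q - t ≤ B) :
    α * nx + β * ny / 2 ≤ (A + B) / 2 + ε := by
  have h8 : α * (nx - ε / 2) ≤ α * fx := mul_le_mul_of_nonneg_left hf hα
  have h9 : β * (ny - ε / 2) ≤ β * gy := mul_le_mul_of_nonneg_left hg hβ
  have h10 : α * ε ≤ 1 * ε := mul_le_mul_of_nonneg_right hα1 hε.le
  have h11 : β * ε ≤ 1 * ε := mul_le_mul_of_nonneg_right hβ1 hε.le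
  linarith

theorem gspace_AMP {V0 : Set (List ℕ)} (hG : GoodFamily P V0)
    (hP : ∀ f, P f → ∀ s, |f s| ≤ 2) : AMP (gspace hP) := by
  classical
  intro x η hη
  -- approximate `x` by an element of the span
  have hx := x.2
  obtain ⟨x', hx', hxx'⟩ := Metric.mem_closure_iff.mp
    (show (x : lp (fun _ : {f // P f} => ℝ) ⊤) ∈
      closure ((Submodule.span ℝ (Set.range (gcoord hP)) : Submodule ℝ _) : Set _) from hx)
    (η / 2) (by positivity)
  -- finite support
  obtain ⟨A, hA⟩ : ∃ A : Finset (List ℕ), x' ∈ Submodule.span ℝ (gcoord hP '' (A : Set _)) := by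
    have := hx'
    rw [SetLike.mem_coe] at this
    obtain ⟨c, hc⟩ := (Finsupp.mem_span_range_iff_exists_finsupp).mp this
    refine ⟨c.support, ?_⟩
    rw [← hc]
    exact Submodule.sum_mem _ fun i hi =>
      Submodule.smul_mem _ _ (Submodule.subset_span ⟨i, hi, rfl⟩)
  set S : Finset (List ℕ) := sufClosure A with hS
  set x1 : gspace hP := ⟨x', Submodule.le_topologicalClosure _ hx'⟩ with hx1
  -- coordinates functionals
  have hdel : ∀ s : {s // s ∈ S.filter (· ∈ V0)}, P (Pi.single s.1 1) := fun s =>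
    hG.single s.1 (Finset.mem_filter.mp s.2).2
  let Φ : gspace hP →L[ℝ] ({s // s ∈ S.filter (· ∈ V0)} → ℝ) :=
    ContinuousLinearMap.pi fun s => gev hP ⟨Pi.single s.1 1, hdel s⟩
  refine ⟨LinearMap.ker Φ.toLinearMap, ?_, ?_, ?_⟩
  · exact ContinuousLinearMap.isClosed_ker Φ
  · exact finDim_quot_ker Φ.toLinearMap
  intro y hy
  have hy0 : ∀ s (hs : s ∈ S) (hs0 : s ∈ V0), gev hP ⟨Pi.single s 1, hG.single s hs0⟩ y = 0 := by
    intro s hs hs0
    have h1 : Φ y = 0 := hy
    exact congrFun h1 ⟨s, Finset.mem_filter.mpr ⟨hs, hs0⟩⟩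
  -- main inequality for x1
  have hmain : √(‖x1‖ ^ 2 + ‖y‖ ^ 2 / 4) ≤ (‖x1 + y‖ + ‖x1 - y‖) / 2 := by
    refine optimise _ _ _ (norm_nonneg _) (norm_nonneg _) (by positivity) ?_
    intro α β hα hβ hαβ
    refine le_of_forall_pos_le_add fun ε hε => ?_
    obtain ⟨f, hf⟩ := exists_norming hG hP x1 (ε / 2) (by positivity)
    obtain ⟨g, hg⟩ := exists_norming hG hP y (ε / 2) (by positivity)
    have hα1 : α ≤ 1 := by nlinarith
    have hβ1 : β ≤ 1 := by nlinarith
    obtain ⟨hp, hm, e1, e2, e3, e4, e5, e6, e7⟩ := clamp_exists f.1 g.1 (hG.pot _ f.2)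
      (hG.pot _ g.2) (S : Set (List ℕ)) (nil_mem_sufClosure A)
      (fun a v h => sufClosure_closed A a v h) α β hα hα1 hβ hβ1
    have Php : P hp := hG.mix f.1 g.1 hp f.2 g.2 S (nil_mem_sufClosure A) α β hα hβ hαβ e1 e3 e6
    have Phm : P hm := hG.mix f.1 g.1 hm f.2 g.2 S (nil_mem_sufClosure A) α β hα hβ hαβ e2 e4 e7
    -- evaluation on x1
    have hx1ev : ∀ (h : List ℕ → ℝ) (Ph : P h), (∀ s ∈ (S : Set (List ℕ)), h s = α * f.1 s) →
        gev hP ⟨h, Ph⟩ x1 = α * gev hP f x1 := by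
      intro h Ph hh
      have key : ∀ z (hz : z ∈ Submodule.span ℝ (gcoord hP '' (A : Set _))),
          z ⟨h, Ph⟩ = α * z f := by
        intro z hz
        induction hz using Submodule.span_induction with
        | mem z hz =>
          obtain ⟨s, hs, rfl⟩ := hz
          exact hh s (subset_sufClosure A hs)
        | zero => simp
        | add z w hz hw h1 h2 =>
          simp only [lp.coeFn_add, Pi.add_apply, h1, h2]; ring
        | smul c z hz h1 =>
          simp only [lp.coeFn_smul, Pi.smul_apply, h1, smul_eq_mul]; ring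
      exact key x' hA
    have h1 := hx1ev hp Php e1
    have h2 := hx1ev hm Phm e2
    -- evaluation on y
    have h3 : gev hP ⟨hp, Php⟩ y - gev hP ⟨hm, Phm⟩ y = β * gev hP g y := by
      have h4 := gspace_ext hP
        (gev hP ⟨hp, Php⟩ - gev hP ⟨hm, Phm⟩ - β • gev hP g)
        (∑ s : {s // s ∈ S.filter (· ∈ V0)},
          (-(β * g.1 s.1)) • gev hP ⟨Pi.single s.1 1, hdel s⟩) (fun u => by
          simp only [sub_apply, smul_apply, sum_apply, gev_gvec, smul_eq_mul]
          by_cases huS : u ∈ S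
          · have e1' := e1 u huS
            have e2' := e2 u huS
            rw [e1', e2']
            by_cases hu0 : u ∈ V0
            · rw [Finset.sum_eq_single (⟨u, Finset.mem_filter.mpr ⟨huS, hu0⟩⟩ :
                {s // s ∈ S.filter (· ∈ V0)})]
              · simp
              · intro b _ hb
                have : u ≠ b.1 := fun h => hb (Subtype.ext h.symm)
                simp [this]
              · simp
            · have hgu := hG.off _ g.2 u hu0
              rw [Finset.sum_eq_zero]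
              · rw [hgu]; ring
              · intro b _
                have : u ≠ b.1 := fun h => hu0 (h ▸ (Finset.mem_filter.mp b.2).2)
                simp [this]
          · have e5' := e5 u huS
            rw [Finset.sum_eq_zero]
            · linarith
            · intro b _
              have : u ≠ b.1 := fun h => huS (h ▸ (Finset.mem_filter.mp b.2).1)
              simp [this]) y
      simp only [sub_apply, smul_apply, sum_apply, smul_eq_mul] at h4
      have h5 : ∑ s : {s // s ∈ S.filter (· ∈ V0)},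
          -(β * g.1 s.1) * gev hP ⟨Pi.single s.1 1, hdel s⟩ y = 0 := by
        refine Finset.sum_eq_zero fun s _ => ?_
        rw [hy0 s.1 (Finset.mem_filter.mp s.2).1 (Finset.mem_filter.mp s.2).2, mul_zero]
      rw [h5] at h4
      linarith
    have h6 : gev hP ⟨hp, Php⟩ (x1 + y) ≤ ‖x1 + y‖ := (le_abs_self _).trans (gev_le_norm hP _ _)
    have h7 : gev hP ⟨hm, Phm⟩ (x1 - y) ≤ ‖x1 - y‖ := (le_abs_self _).trans (gev_le_norm hP _ _)
    rw [map_add] at h6
    rw [map_sub] at h7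
    exact final_ineq α β ε _ _ _ _ _ _ _ _ _ _ hα hβ hα1 hβ1 hε hf hg h1 h2 h3 h6 h7
  have hd : ‖x - x1‖ < η / 2 := by
    rw [Submodule.coe_norm]
    simpa [dist_eq_norm] using hxx'
  have h1 := sqrt_sq_add_lip ‖x‖ ‖x1‖ ‖y‖ (norm_nonneg _)
  have h2 : |‖x‖ - ‖x1‖| ≤ ‖x - x1‖ := abs_norm_sub_norm_le _ _
  have h3 : ‖x1 + y‖ ≤ ‖x + y‖ + ‖x - x1‖ := by
    have : x1 + y = (x + y) - (x - x1) := by abel
    rw [this]; exact norm_sub_le _ _
  have h4 : ‖x1 - y‖ ≤ ‖x - y‖ + ‖x - x1‖ := by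
    have : x1 - y = (x - y) - (x - x1) := by abel
    rw [this]; exact norm_sub_le _ _
  linarith

/-- path sums (starting below the root). -/
noncomputable def gpath (hP : ∀ f, P f → ∀ s, |f s| ≤ 2) : List ℕ → gspace hP
  | [] => gvec hP [0]
  | a :: v => gpath hP v + gvec hP (a :: (v ++ [0]))

theorem gev_gpath (hP : ∀ f, P f → ∀ s, |f s| ≤ 2) (f : {f // P f}) (v : List ℕ) :
    gev hP f (gpath hP v) = pathPotential f.1 (v ++ [0]) - f.1 [] := by
  induction v with
  | nil => simp [gpath, gev_gvec, pathPotential]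
  | cons a v ih =>
    rw [gpath, map_add, ih, gev_gvec, List.cons_append, pathPotential]
    ring

theorem norm_gvec_ge {V0 : Set (List ℕ)} (hG : GoodFamily P V0)
    (hP : ∀ f, P f → ∀ s, |f s| ≤ 2) (s : List ℕ) (hs : s ∈ V0) : 1 ≤ ‖gvec hP s‖ := by
  have h := gev_le_norm hP ⟨Pi.single s 1, hG.single s hs⟩ (gvec hP s)
  rw [gev_gvec] at h
  simpa using h

theorem norm_comb_gvec_le {V0 : Set (List ℕ)} (hG : GoodFamily P V0)
    (hP : ∀ f, P f → ∀ s, |f s| ≤ 2) (w : List ℕ) (A : Finset ℕ) (c : ℕ → ℝ) :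
    ‖∑ a ∈ A, c a • gvec hP (a :: w)‖ ≤ 1 * √(∑ a ∈ A, c a ^ 2) := by
  refine gnorm_le hP _ _ (by positivity) (fun f => ?_)
  simp only [map_sum, map_smul, gev_gvec, smul_eq_mul]
  have h1 := Finset.sum_mul_sq_le_sq_mul_sq A c (fun a => f.1 (a :: w))
  have h2 := hG.child f.1 f.2 w A
  rw [one_mul]
  apply Real.abs_le_sqrt
  have h3 : 0 ≤ ∑ a ∈ A, c a ^ 2 := Finset.sum_nonneg fun a _ => sq_nonneg _
  nlinarith

theorem gspace_tree {V0 : Set (List ℕ)} (hG : GoodFamily P V0)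
    (hP : ∀ f, P f → ∀ s, |f s| ≤ 2) (n : ℕ)
    (hV : ∀ v : List ℕ, v ≠ [] → v.length ≤ n + 1 → v ∈ V0) :
    ∃ x : List ℕ → gspace hP, 1 ≤ ‖x []‖ ∧ (∀ v, ‖x v‖ ≤ 2) ∧
      ∀ v, v.length < n → (∀ a, 1 ≤ ‖x (a :: v) - x v‖) ∧
        ∀ φ : StrongDual ℝ (gspace hP), Tendsto (fun a => φ (x (a :: v) - x v)) atTop (𝓝 0) := by
  refine ⟨gpath hP, ?_, ?_, ?_⟩
  · exact norm_gvec_ge hG hP _ (hV _ (by simp) (by simp))
  · intro v
    refine gnorm_le hP _ _ (by norm_num) (fun f => ?_)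
    rw [gev_gpath]
    have h1 := abs_le.mp (hG.pot f.1 f.2 (v ++ [0]))
    have h2 := abs_le.mp (hG.pot f.1 f.2 [])
    simp only [pathPotential] at h2
    rw [abs_le]; constructor <;> linarith
  · intro v hv
    have hd : ∀ a, gpath hP (a :: v) - gpath hP v = gvec hP (a :: (v ++ [0])) := by
      intro a
      simp [gpath]
    refine ⟨fun a => ?_, fun φ => ?_⟩
    · rw [hd]
      exact norm_gvec_ge hG hP _ (hV _ (by simp) (by simp; omega))
    · simp only [hd]
      exact weaklyNull_of_l2_dominated _ 1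
        (fun A c => norm_comb_gvec_le hG hP (v ++ [0]) A c) φ

theorem gspace_separable (hP : ∀ f, P f → ∀ s, |f s| ≤ 2) :
    TopologicalSpace.SeparableSpace (gspace hP) := by
  have h1 : TopologicalSpace.IsSeparable (Set.range (gcoord hP)) :=
    (Set.countable_range _).isSeparable
  have h2 := (h1.span (R := ℝ)).closure
  exact h2.separableSpace

/-- `AMP` gives the averaged modulus bound. -/
theorem midpoint_of_AMP (E : RealBanach) (h : letI := E.normed; letI := E.space; AMP E.X)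
    (t : ℝ) (ht : 0 < t) : E.MidpointModulusGE E.norm t (√(1 + t ^ 2 / 4) - 1) := by
  let := E.normed
  let := E.space
  intro x hx η hη
  obtain ⟨S, hS, hfin, hy⟩ := h x η hη
  refine ⟨S, ⟨S, rfl, hS, hfin⟩, fun y hyS hy1 => ?_⟩
  have h1 := hy (t • y) (S.smul_mem t hyS)
  have hx' : ‖x‖ = 1 := hx
  have hy' : ‖y‖ = 1 := hy1
  rw [hx', norm_smul, hy', Real.norm_eq_abs, abs_of_pos ht, mul_one, one_pow] at h1
  change √(1 + t ^ 2 / 4) - 1 - η ≤ (‖x + t • y‖ + ‖x - t • y‖) / 2 - 1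
  linarith

end Crest.Agent.Row125
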