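import Mathlib
import Crest.Prelude.Def_AsymptoticConvexity
import Crest.Prelude.Def_DaugavetL1
import Crest.Agent.Row125.GenSpace

set_option autoImplicit false

namespace Crest.Agent.Row125

open Crest.AnalysisR Crest.AnalysisR.L1Subspace Filter Topology

variable {V : Type*} [NormedAddCommGroup V] [NormedSpace ℝ V]

theorem daug_unit (hD : HasDaugavetProperty V) (φ : V →L[ℝ] ℝ) (hφ : φ ≠ 0) (u : V)
    (hu : ‖u‖ = 1) (δ : ℝ) (hδ : 0 < δ) :
    ∃ w : V, ‖w‖ ≤ 1 ∧ ‖φ‖ * (1 - δ) ≤ φ w ∧ 1 - δ ≤ ‖w‖ ∧ 2 - 2 * δ ≤ ‖u + w‖ := by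
  have hφn : 0 < ‖φ‖ := norm_pos_iff.mpr hφ
  have h1 := hD φ (‖φ‖⁻¹ • u)
  have h2 : ‖φ.smulRight (‖φ‖⁻¹ • u)‖ = 1 := by
    rw [ContinuousLinearMap.norm_smulRight_apply, norm_smul, norm_inv, norm_norm, hu]
    field_simp
  rw [h2] at h1
  obtain ⟨w, hw1, hw2⟩ := (ContinuousLinearMap.id ℝ V +
    φ.smulRight (‖φ‖⁻¹ • u)).exists_lt_apply_of_lt_opNorm (r := 2 - δ) (by linarith)
  have key : ∀ w : V, ‖w‖ < 1 → 2 - δ < ‖w + φ w • (‖φ‖⁻¹ • u)‖ → 0 ≤ φ w →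
      ∃ w : V, ‖w‖ ≤ 1 ∧ ‖φ‖ * (1 - δ) ≤ φ w ∧ 1 - δ ≤ ‖w‖ ∧ 2 - 2 * δ ≤ ‖u + w‖ := by
    intro w hw1 hw2 hw3
    set a : ℝ := φ w / ‖φ‖ with ha
    have ha0 : 0 ≤ a := by positivity
    have ha1 : a ≤ 1 := by
      rw [ha, div_le_one hφn]
      calc φ w ≤ ‖φ w‖ := le_abs_self _
        _ ≤ ‖φ‖ * ‖w‖ := φ.le_opNorm w
        _ ≤ ‖φ‖ * 1 := mul_le_mul_of_nonneg_left hw1.le hφn.le
        _ = ‖φ‖ := mul_one _
    have h3 : φ w • (‖φ‖⁻¹ • u) = a • u := by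
      rw [smul_smul, ha, div_eq_mul_inv]
    rw [h3] at hw2
    have h4 : ‖w + a • u‖ ≤ ‖w‖ + a := by
      refine (norm_add_le _ _).trans ?_
      rw [norm_smul, hu, mul_one, Real.norm_of_nonneg ha0]
    have h5 : 1 - δ ≤ a := by linarith
    refine ⟨w, hw1.le, ?_, by linarith, ?_⟩
    · have : φ w = ‖φ‖ * a := by rw [ha]; field_simp
      rw [this]
      exact mul_le_mul_of_nonneg_left h5 hφn.le
    · have h6 : w + a • u = (u + w) - (1 - a) • u := by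
        rw [sub_smul, one_smul]; abel
      rw [h6] at hw2
      have h7 := norm_sub_le (u + w) ((1 - a) • u)
      rw [norm_smul, hu, mul_one, Real.norm_of_nonneg (by linarith)] at h7
      linarith
  have hw2' : 2 - δ < ‖w + φ w • (‖φ‖⁻¹ • u)‖ := by simpa using hw2
  rcases le_total 0 (φ w) with h | h
  · exact key w hw1 hw2' h
  · refine key (-w) (by rwa [norm_neg]) ?_ (by rw [map_neg]; linarith)
    have : -w + φ (-w) • (‖φ‖⁻¹ • u) = -(w + φ w • (‖φ‖⁻¹ • u)) := by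
      rw [map_neg, neg_smul]; abel
    rwa [this, norm_neg]

theorem exists_unit_dir (hne : ∃ u : V, u ≠ 0) (x : V) : ∃ u : V, ‖u‖ = 1 ∧ x = ‖x‖ • u := by
  by_cases hx : x = 0
  · obtain ⟨u, hu⟩ := hne
    refine ⟨‖u‖⁻¹ • u, ?_, by simp [hx]⟩
    rw [norm_smul, norm_inv, norm_norm, inv_mul_cancel₀ (norm_ne_zero_iff.mpr hu)]
  · refine ⟨‖x‖⁻¹ • x, ?_, ?_⟩
    · rw [norm_smul, norm_inv, norm_norm, inv_mul_cancel₀ (norm_ne_zero_iff.mpr hx)]
    · rw [smul_smul, mul_inv_cancel₀ (norm_ne_zero_iff.mpr hx), one_smul]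

theorem daug_slice (hD : HasDaugavetProperty V) (hne : ∃ u : V, u ≠ 0) (φ : V →L[ℝ] ℝ) (x : V)
    (ε : ℝ) (hε : 0 < ε) :
    ∃ z : V, ‖z‖ ≤ 1 ∧ ‖φ‖ - ε ≤ φ z ∧ ‖x‖ + 1 - ε ≤ ‖x + z‖ := by
  -- reduce to `φ ≠ 0`
  have main : ∀ ψ : V →L[ℝ] ℝ, ψ ≠ 0 →
      ∃ z : V, ‖z‖ ≤ 1 ∧ ‖ψ‖ - ε ≤ ψ z ∧ ‖x‖ + 1 - ε ≤ ‖x + z‖ := by
    intro ψ hψ
    obtain ⟨u, hu, hxu⟩ := exists_unit_dir hne x
    set δ : ℝ := ε / (2 * (‖x‖ + 1) + ‖ψ‖) with hδ
    have hden : 0 < 2 * (‖x‖ + 1) + ‖ψ‖ := by positivity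
    have hδ0 : 0 < δ := by positivity
    have hδε : δ * (2 * (‖x‖ + 1) + ‖ψ‖) = ε := by
      rw [hδ]; field_simp
    obtain ⟨w, hw1, hw2, hw3, hw4⟩ := daug_unit hD ψ hψ u hu δ hδ0
    have hψ0 := norm_nonneg ψ
    have hx0 := norm_nonneg x
    refine ⟨w, hw1, by nlinarith, ?_⟩
    rcases le_total 1 ‖x‖ with h | h
    · have h1 : x + w = ‖x‖ • (u + w) - (‖x‖ - 1) • w := by
        rw [smul_add, ← hxu, sub_smul, one_smul]; abel
      have h2 : ‖‖x‖ • (u + w)‖ = ‖x‖ * ‖u + w‖ := by rw [norm_smul, norm_norm]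
      have h3 : ‖(‖x‖ - 1) • w‖ = (‖x‖ - 1) * ‖w‖ := by
        rw [norm_smul, Real.norm_of_nonneg (by linarith)]
      have h4 := norm_sub_norm_le (‖x‖ • (u + w)) ((‖x‖ - 1) • w)
      rw [← h1, h2, h3] at h4
      nlinarith
    · have h1 : x + w = (u + w) - (1 - ‖x‖) • u := by
        rw [sub_smul, one_smul, ← hxu]; abel
      have h3 : ‖(1 - ‖x‖) • u‖ = (1 - ‖x‖) := by
        rw [norm_smul, Real.norm_of_nonneg (by linarith), hu, mul_one]
      have h4 := norm_sub_norm_le (u + w) ((1 - ‖x‖) • u)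
      rw [← h1, h3] at h4
      nlinarith
  by_cases hφ : φ = 0
  · obtain ⟨u, hu⟩ := hne
    obtain ⟨ψ, hψ1, hψ2⟩ := exists_dual_vector ℝ u (norm_ne_zero_iff.mpr hu)
    have hψ : ψ ≠ 0 := by
      intro h
      rw [h, norm_zero] at hψ1
      exact zero_ne_one hψ1
    obtain ⟨z, hz1, _, hz3⟩ := main ψ hψ
    refine ⟨z, hz1, ?_, hz3⟩
    rw [hφ]; simp; linarith
  · exact main φ hφ

theorem norm_sub_sq_alt {H : Type*} [NormedAddCommGroup H] [InnerProductSpace ℝ H] (a b : H) :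
    ‖a - b‖ ^ 2 = ‖a‖ ^ 2 - ‖b‖ ^ 2 - 2 * inner ℝ b (a - b) := by
  rw [norm_sub_sq_real, inner_sub_right, real_inner_self_eq_norm_sq, real_inner_comm]
  ring

theorem daug_weak (hD : HasDaugavetProperty V) (hne : ∃ u : V, u ≠ 0) (n : ℕ)
    (Φ : V →L[ℝ] EuclideanSpace ℝ (Fin n)) (x : V) (hx : ‖x‖ ≤ 1) (v : V)
    (ε : ℝ) (hε : 0 < ε) :
    ∃ z : V, ‖z‖ ≤ 1 ∧ ‖Φ z - Φ x‖ < ε ∧ ‖v‖ + 1 - ε ≤ ‖v + z‖ := by
  set G : Set (EuclideanSpace ℝ (Fin n)) :=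
    {c | ∀ (v : V) (ε : ℝ), 0 < ε → ∃ z : V, ‖z‖ ≤ 1 ∧ ‖Φ z - c‖ < ε ∧ ‖v‖ + 1 - ε ≤ ‖v + z‖}
    with hG
  have hGconv : Convex ℝ G := by
    intro c1 hc1 c2 hc2 a b ha hb hab v ε hε
    obtain ⟨z1, h1, h2, h3⟩ := hc1 v (ε / 2) (by positivity)
    obtain ⟨z2, h4, h5, h6⟩ := hc2 (v + a • z1) (ε / 2) (by positivity)
    refine ⟨a • z1 + b • z2, ?_, ?_, ?_⟩
    · refine (norm_add_le _ _).trans ?_
      rw [norm_smul, norm_smul, Real.norm_of_nonneg ha, Real.norm_of_nonneg hb]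
      nlinarith
    · have e1 : Φ (a • z1 + b • z2) - (a • c1 + b • c2) = a • (Φ z1 - c1) + b • (Φ z2 - c2) := by
        rw [map_add, map_smul, map_smul, smul_sub, smul_sub]; abel
      rw [e1]
      refine lt_of_le_of_lt (norm_add_le _ _) ?_
      rw [norm_smul, norm_smul, Real.norm_of_nonneg ha, Real.norm_of_nonneg hb]
      nlinarith
    · have e1 : v + z1 = (v + a • z1) + b • z1 := by
        rw [add_assoc, ← add_smul, hab, one_smul]
      have e2 : ‖v + z1‖ ≤ ‖v + a • z1‖ + b := by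
        rw [e1]
        refine (norm_add_le _ _).trans ?_
        rw [norm_smul, Real.norm_of_nonneg hb]
        nlinarith
      have e3 : v + a • z1 + z2 = (v + (a • z1 + b • z2)) + a • z2 := by
        have : z2 = b • z2 + a • z2 := by
          rw [← add_smul, add_comm b a, hab, one_smul]
        conv_lhs => rw [this]
        abel
      have e4 : ‖v + a • z1 + z2‖ ≤ ‖v + (a • z1 + b • z2)‖ + a := by
        rw [e3]
        refine (norm_add_le _ _).trans ?_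
        rw [norm_smul, Real.norm_of_nonneg ha]
        nlinarith
      linarith
  have hGclosed : IsClosed G := by
    rw [← closure_subset_iff_isClosed]
    intro c hc v ε hε
    obtain ⟨c', hc', hcc'⟩ := Metric.mem_closure_iff.mp hc (ε / 2) (by positivity)
    obtain ⟨z, h1, h2, h3⟩ := hc' v (ε / 2) (by positivity)
    refine ⟨z, h1, ?_, by linarith⟩
    rw [dist_eq_norm, norm_sub_rev] at hcc'
    have : Φ z - c = (Φ z - c') + (c' - c) := by abel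
    rw [this]
    refine lt_of_le_of_lt (norm_add_le _ _) ?_
    linarith
  set C : Set (EuclideanSpace ℝ (Fin n)) := closure (Φ '' Metric.closedBall 0 1) with hC
  have hCbdd : ∀ c ∈ C, ‖c‖ ≤ ‖Φ‖ := by
    intro c hc
    have hcl : IsClosed {c : EuclideanSpace ℝ (Fin n) | ‖c‖ ≤ ‖Φ‖} :=
      isClosed_le continuous_norm continuous_const
    have : C ⊆ {c : EuclideanSpace ℝ (Fin n) | ‖c‖ ≤ ‖Φ‖} := by
      refine closure_minimal ?_ hcl
      rintro _ ⟨z, hz, rfl⟩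
      rw [mem_closedBall_zero_iff] at hz
      change ‖Φ z‖ ≤ ‖Φ‖
      calc ‖Φ z‖ ≤ ‖Φ‖ * ‖z‖ := Φ.le_opNorm z
        _ ≤ ‖Φ‖ * 1 := mul_le_mul_of_nonneg_left hz (norm_nonneg _)
        _ = ‖Φ‖ := mul_one _
    exact this hc
  have hCcomp : IsCompact C := by
    refine Metric.isCompact_of_isClosed_isBounded isClosed_closure ?_
    rw [isBounded_iff_forall_norm_le]
    exact ⟨‖Φ‖, hCbdd⟩
  have hxC : Φ x ∈ C := subset_closure ⟨x, by rwa [mem_closedBall_zero_iff], rfl⟩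
  -- farthest points are in G
  have hfar : ∀ p : EuclideanSpace ℝ (Fin n), ∃ e ∈ C, e ∈ G ∧ ∀ c ∈ C, ‖c - p‖ ≤ ‖e - p‖ := by
    intro p
    obtain ⟨e, heC, he⟩ := hCcomp.exists_isMaxOn ⟨_, hxC⟩
      (f := fun c => ‖c - p‖) (by fun_prop)
    have he' : ∀ c ∈ C, ‖c - p‖ ≤ ‖e - p‖ := fun c hc => he hc
    refine ⟨e, heC, ?_, he'⟩
    intro v ε hε
    set φ : V →L[ℝ] ℝ := (innerSL ℝ (e - p)).comp Φ with hφ
    have hφn : inner ℝ (e - p) e ≤ ‖φ‖ := by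
      have hcl : IsClosed {c : EuclideanSpace ℝ (Fin n) | inner ℝ (e - p) c ≤ ‖φ‖} :=
        isClosed_le (by fun_prop) continuous_const
      have : C ⊆ {c : EuclideanSpace ℝ (Fin n) | inner ℝ (e - p) c ≤ ‖φ‖} := by
        refine closure_minimal ?_ hcl
        rintro _ ⟨z, hz, rfl⟩
        rw [mem_closedBall_zero_iff] at hz
        change inner ℝ (e - p) (Φ z) ≤ ‖φ‖
        calc inner ℝ (e - p) (Φ z) = φ z := rfl
          _ ≤ ‖φ z‖ := le_abs_self _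
          _ ≤ ‖φ‖ * ‖z‖ := φ.le_opNorm z
          _ ≤ ‖φ‖ * 1 := mul_le_mul_of_nonneg_left hz (norm_nonneg _)
          _ = ‖φ‖ := mul_one _
      exact this heC
    set δ : ℝ := min ε (ε ^ 2 / 4) with hδ
    have hδ0 : 0 < δ := by
      apply lt_min hε; positivity
    obtain ⟨z, hz1, hz2, hz3⟩ := daug_slice hD hne φ v δ hδ0
    refine ⟨z, hz1, ?_, ?_⟩
    · have hzC : Φ z ∈ C := subset_closure ⟨z, by rwa [mem_closedBall_zero_iff], rfl⟩
      have h1 := he' _ hzC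
      have h2 : φ z = inner ℝ (e - p) (Φ z) := rfl
      have h3 : ‖Φ z - e‖ ^ 2 = ‖Φ z - p‖ ^ 2 - ‖e - p‖ ^ 2 -
          2 * (inner ℝ (e - p) (Φ z) - inner ℝ (e - p) e) := by
        have e1 := norm_sub_sq_alt (Φ z - p) (e - p)
        rw [sub_sub_sub_cancel_right, inner_sub_right] at e1
        exact e1
      have h4 : ‖Φ z - p‖ ^ 2 ≤ ‖e - p‖ ^ 2 := pow_le_pow_left₀ (norm_nonneg _) h1 2
      have h5 : ‖Φ z - e‖ ^ 2 < ε ^ 2 := by
        have h6 : δ ≤ ε ^ 2 / 4 := min_le_right _ _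
        have h7 : 0 < ε ^ 2 := by positivity
        rw [h3]
        linarith
      exact lt_of_pow_lt_pow_left₀ 2 hε.le h5
    · have : δ ≤ ε := min_le_left _ _
      linarith
  -- separation
  have hxG : Φ x ∈ G := by
    by_contra hcon
    obtain ⟨f, γ, hf1, hf2⟩ := geometric_hahn_banach_point_closed hGconv hGclosed hcon
    set u := (InnerProductSpace.toDual ℝ (EuclideanSpace ℝ (Fin n))).symm f with hu
    have hfu : ∀ c, f c = inner ℝ u c := by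
      intro c
      rw [hu, InnerProductSpace.toDual_symm_apply]
    set κ : ℝ := γ - f (Φ x) with hκ
    have hκ0 : 0 < κ := by linarith
    set R : ℝ := ((2 * ‖Φ‖) ^ 2 + 1) / (2 * κ) with hR
    have hR0 : 0 < R := by positivity
    obtain ⟨e, heC, heG, he⟩ := hfar (Φ x + R • u)
    have h1 := he _ hxC
    have h2 : ‖e - (Φ x + R • u)‖ ^ 2 = ‖e - Φ x‖ ^ 2 - 2 * R * (f e - f (Φ x)) + ‖R • u‖ ^ 2 := by
      have e1 : e - (Φ x + R • u) = (e - Φ x) - R • u := by abel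
      rw [e1, norm_sub_sq_real, inner_smul_right, real_inner_comm, inner_sub_right, hfu, hfu]
      ring
    have h3 : ‖Φ x - (Φ x + R • u)‖ = ‖R • u‖ := by
      rw [sub_add_cancel_left, norm_neg]
    rw [h3] at h1
    have h4 : ‖R • u‖ ^ 2 ≤ ‖e - (Φ x + R • u)‖ ^ 2 := pow_le_pow_left₀ (norm_nonneg _) h1 2
    have h5 : ‖e - Φ x‖ ≤ 2 * ‖Φ‖ := by
      refine (norm_sub_le _ _).trans ?_
      have := hCbdd e heC
      have := hCbdd _ hxC
      linarith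
    have h6 : ‖e - Φ x‖ ^ 2 ≤ (2 * ‖Φ‖) ^ 2 := pow_le_pow_left₀ (norm_nonneg _) h5 2
    have h7 := hf2 e heG
    have h8 : 2 * R * κ = (2 * ‖Φ‖) ^ 2 + 1 := by
      rw [hR]; field_simp
    have h9 : 2 * R * κ ≤ 2 * R * (f e - f (Φ x)) := by
      refine mul_le_mul_of_nonneg_left ?_ (by positivity)
      linarith
    linarith
  exact hxG v ε hε

theorem daug_cof (hD : HasDaugavetProperty V) (hne : ∃ u : V, u ≠ 0) (S : Submodule ℝ V)
    (hS : IsClosed (S : Set V)) (hfin : FiniteDimensional ℝ (V ⧸ S)) (x : V) (hx : ‖x‖ ≤ 1)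
    (ε : ℝ) (hε : 0 < ε) :
    ∃ z : V, ‖z‖ ≤ 1 ∧ (∃ y ∈ S, ‖z - x - y‖ < ε) ∧ ‖x‖ + 1 - ε ≤ ‖z - x‖ := by
  have : IsClosed (S : Set V) := hS
  let L := toEuclidean (E := V ⧸ S)
  let Φ : V →L[ℝ] EuclideanSpace ℝ (Fin (Module.finrank ℝ (V ⧸ S))) :=
    (L : (V ⧸ S) →L[ℝ] _).comp S.mkQL
  set K : ℝ := ‖(L.symm : EuclideanSpace ℝ (Fin (Module.finrank ℝ (V ⧸ S))) →L[ℝ] (V ⧸ S))‖ with hK
  have hK0 : 0 ≤ K := ContinuousLinearMap.opNorm_nonneg _
  set δ : ℝ := min ε (ε / (K + 1)) with hδ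
  have hδ0 : 0 < δ := lt_min hε (by positivity)
  obtain ⟨z, hz1, hz2, hz3⟩ := daug_weak hD hne _ Φ x hx (-x) δ hδ0
  refine ⟨z, hz1, ?_, ?_⟩
  · have h1 : ‖(Submodule.Quotient.mk (z - x) : V ⧸ S)‖ < ε := by
      have e1 : (Submodule.Quotient.mk (z - x) : V ⧸ S) = L.symm (Φ z - Φ x) := by
        rw [← map_sub]
        change _ = L.symm (L (S.mkQL (z - x)))
        rw [ContinuousLinearEquiv.symm_apply_apply]
        rfl
      rw [e1]
      calc ‖L.symm (Φ z - Φ x)‖ ≤ K * ‖Φ z - Φ x‖ :=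
            (L.symm : EuclideanSpace ℝ (Fin (Module.finrank ℝ (V ⧸ S))) →L[ℝ] (V ⧸ S)).le_opNorm _
        _ ≤ K * δ := mul_le_mul_of_nonneg_left hz2.le hK0
        _ ≤ K * (ε / (K + 1)) := mul_le_mul_of_nonneg_left (min_le_right _ _) hK0
        _ < ε := by
          rw [mul_div_assoc', div_lt_iff₀ (by positivity)]
          nlinarith
    obtain ⟨m, hm, hmn⟩ := QuotientAddGroup.norm_lt_iff.mp h1
    refine ⟨z - x - m, ?_, by simpa using hmn⟩
    have : (Submodule.Quotient.mk (z - x) : V ⧸ S) = Submodule.Quotient.mk m := hm.symm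
    exact (Submodule.Quotient.eq S).mp this
  · rw [norm_neg] at hz3
    have e1 : -x + z = z - x := by abel
    rw [e1] at hz3
    have : δ ≤ ε := min_le_left _ _
    linarith

/-- Upper bounds. -/
theorem daug_upper (hD : HasDaugavetProperty V) (hne : ∃ u : V, u ≠ 0) (S : Submodule ℝ V)
    (hS : IsClosed (S : Set V)) (hfin : FiniteDimensional ℝ (V ⧸ S)) (x : V) (hx : ‖x‖ = 1)
    (t : ℝ) (ht : 0 < t) (η : ℝ) (hη : 0 < η) :
    ∃ y ∈ S, ‖y‖ = 1 ∧ ‖x + t • y‖ ≤ max 1 (t - 1) + η ∧ ‖x - t • y‖ ≤ 1 + t := by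
  set ε : ℝ := min (1 / 4) (η / (3 * t)) with hε
  have hε0 : 0 < ε := lt_min (by norm_num) (by positivity)
  have hε4 : ε ≤ 1 / 4 := min_le_left _ _
  have hεη : 3 * t * ε ≤ η := by
    have : ε ≤ η / (3 * t) := min_le_right _ _
    rw [le_div_iff₀ (by positivity)] at this
    linarith
  obtain ⟨z, hz1, ⟨y1, hy1S, hy1⟩, hz3⟩ := daug_cof hD hne S hS hfin x hx.le ε hε0
  rw [hx] at hz3
  set d : V := (1 / 2 : ℝ) • (z - x) with hd
  obtain ⟨y0, hy0S, hdy⟩ : ∃ y0 ∈ S, ‖d - y0‖ ≤ ε / 2 := by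
    refine ⟨(1 / 2 : ℝ) • y1, S.smul_mem _ hy1S, ?_⟩
    rw [hd, ← smul_sub, norm_smul]
    norm_num
    linarith
  have hdn1 : 1 - ε / 2 ≤ ‖d‖ := by
    rw [hd, norm_smul]; norm_num; linarith
  have hdn2 : ‖d‖ ≤ 1 := by
    rw [hd, norm_smul]
    have := norm_sub_le z x
    rw [hx] at this
    norm_num; linarith
  have hyn1 : 1 - ε ≤ ‖y0‖ := by
    have := norm_sub_norm_le d y0
    linarith
  have hyn2 : ‖y0‖ ≤ 1 + ε := by
    have := norm_sub_norm_le y0 d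
    rw [norm_sub_rev] at this
    linarith
  have hy0pos : 0 < ‖y0‖ := by linarith
  set y : V := ‖y0‖⁻¹ • y0 with hy
  have hyS : y ∈ S := S.smul_mem _ hy0S
  have hyn : ‖y‖ = 1 := by
    rw [hy, norm_smul, norm_inv, norm_norm, inv_mul_cancel₀ hy0pos.ne']
  have hyy0 : ‖y - y0‖ ≤ ε := by
    have e1 : y - y0 = (1 - ‖y0‖) • y := by
      rw [sub_smul, one_smul, hy, smul_smul, mul_inv_cancel₀ hy0pos.ne', one_smul]
    rw [e1, norm_smul, hyn, mul_one, Real.norm_eq_abs, abs_le]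
    constructor <;> linarith
  have hyd : ‖y - d‖ ≤ 3 * ε := by
    have e1 : y - d = (y - y0) - (d - y0) := by abel
    rw [e1]
    refine (norm_sub_le _ _).trans ?_
    linarith
  refine ⟨y, hyS, hyn, ?_, ?_⟩
  · have e1 : x + t • y = ((1 - t / 2) • x + (t / 2) • z) + t • (y - d) := by
      have e2 : t • d = (t / 2) • z - (t / 2) • x := by
        rw [hd, smul_smul, smul_sub]
        congr 2 <;> ring_nf
      rw [smul_sub, e2, sub_smul, one_smul]; abel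
    rw [e1]
    refine (norm_add_le _ _).trans ?_
    have e3 : ‖t • (y - d)‖ ≤ η := by
      rw [norm_smul, Real.norm_of_nonneg ht.le]
      nlinarith
    have e4 : ‖(1 - t / 2) • x + (t / 2) • z‖ ≤ max 1 (t - 1) := by
      refine (norm_add_le _ _).trans ?_
      rw [norm_smul, norm_smul, hx, mul_one, Real.norm_eq_abs, Real.norm_of_nonneg (by linarith)]
      have e5 : t / 2 * ‖z‖ ≤ t / 2 := by nlinarith
      rcases le_total t 2 with h | h
      · rw [abs_of_nonneg (by linarith)]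
        refine le_trans ?_ (le_max_left _ _)
        linarith
      · rw [abs_of_nonpos (by linarith)]
        refine le_trans ?_ (le_max_right _ _)
        linarith
    linarith
  · refine (norm_sub_le _ _).trans ?_
    rw [norm_smul, hx, hyn, Real.norm_of_nonneg ht.le, mul_one]

end Crest.Agent.Row125
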