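import Mathlib
import Crest.Agent.Row125.GenSpace

set_option autoImplicit false

namespace Crest.Agent.Row125

open Crest.AnalysisR Filter Topology

/-- Reflexivity. -/
def Refl (X : Type*) [NormedAddCommGroup X] [NormedSpace ℝ X] : Prop :=
  Function.Surjective (NormedSpace.inclusionInDoubleDual ℝ X)

theorem refl_iff_exists {X : Type*} [NormedAddCommGroup X] [NormedSpace ℝ X] :
    Refl X ↔ ∀ Φ : StrongDual ℝ (StrongDual ℝ X), ∃ x : X, ∀ φ : StrongDual ℝ X, Φ φ = φ x := by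
  constructor
  · intro h Φ
    obtain ⟨x, hx⟩ := h Φ
    exact ⟨x, fun φ => by rw [← hx]; rfl⟩
  · intro h Φ
    obtain ⟨x, hx⟩ := h Φ
    exact ⟨x, by ext φ; rw [hx]; rfl⟩

theorem refl_of_equiv {X Y : Type*} [NormedAddCommGroup X] [NormedSpace ℝ X]
    [NormedAddCommGroup Y] [NormedSpace ℝ Y] (e : X ≃L[ℝ] Y) (hX : Refl X) : Refl Y := by
  rw [refl_iff_exists] at hX ⊢
  intro Φ
  obtain ⟨x, hx⟩ := hX (Φ.comp (ContinuousLinearMap.precomp ℝ (e.symm : Y →L[ℝ] X)))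
  refine ⟨e x, fun ψ => ?_⟩
  have h := hx (ψ.comp (e : X →L[ℝ] Y))
  have h2 : (ContinuousLinearMap.precomp ℝ (e.symm : Y →L[ℝ] X)) (ψ.comp (e : X →L[ℝ] Y)) = ψ := by
    ext y; simp
  rw [ContinuousLinearMap.comp_apply, h2] at h
  rw [h]; rfl

theorem refl_hilbert {H : Type*} [NormedAddCommGroup H] [InnerProductSpace ℝ H]
    [CompleteSpace H] : Refl H := by
  rw [refl_iff_exists]
  intro Φ
  let L : H →ₗ[ℝ] ℝ :=
    { toFun := fun w => Φ (innerSL ℝ w)
      map_add' := fun a b => by rw [map_add, map_add]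
      map_smul' := fun c a => by
        have : (innerSL ℝ (c • a) : StrongDual ℝ H) = c • innerSL ℝ a := by
          ext z; simp
        rw [this, map_smul]; rfl }
  let L' : StrongDual ℝ H := L.mkContinuous ‖Φ‖ (fun w => by
    have h := Φ.le_opNorm (innerSL ℝ w)
    rwa [innerSL_apply_norm] at h)
  refine ⟨(InnerProductSpace.toDual ℝ H).symm L', fun φ => ?_⟩
  set w := (InnerProductSpace.toDual ℝ H).symm φ with hw
  have hφ : φ = innerSL ℝ w := by
    ext z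
    rw [hw, innerSL_apply_apply, InnerProductSpace.toDual_symm_apply]
  have h1 : L' w = Φ φ := by
    rw [hφ]; rfl
  rw [← h1]
  conv_rhs => rw [hφ]
  rw [innerSL_apply_apply, real_inner_comm, InnerProductSpace.toDual_symm_apply]

section sum

variable {X : ℕ → Type} [∀ n, NormedAddCommGroup (X n)] [∀ n, NormedSpace ℝ (X n)]

omit [∀ n, NormedSpace ℝ (X n)] in
theorem norm_sq_eq (f : lp X 2) : ‖f‖ ^ 2 = ∑' i, ‖f i‖ ^ 2 := by
  have h := lp.norm_rpow_eq_tsum (p := 2) (by norm_num) f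
  simpa using h

omit [∀ n, NormedSpace ℝ (X n)] in
theorem hasSum_sq (f : lp X 2) : HasSum (fun i => ‖f i‖ ^ 2) (‖f‖ ^ 2) := by
  have h := lp.hasSum_norm (p := 2) (by norm_num) f
  simpa using h

omit [∀ n, NormedSpace ℝ (X n)] in
theorem sum_sq_le (f : lp X 2) (s : Finset ℕ) : ∑ i ∈ s, ‖f i‖ ^ 2 ≤ ‖f‖ ^ 2 := by
  exact sum_le_hasSum s (fun i _ => sq_nonneg _) (hasSum_sq f)

theorem lp_separable (h : ∀ n, TopologicalSpace.SeparableSpace (X n)) :
    TopologicalSpace.SeparableSpace (lp X 2) := by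
  have h1 : ∀ n, TopologicalSpace.IsSeparable (Set.range (lp.single (E := X) 2 n)) := fun n =>
    TopologicalSpace.isSeparable_range (lp.isometry_single n).continuous
  have h2 := ((TopologicalSpace.IsSeparable.iUnion h1).span (R := ℝ)).closure
  have h3 : closure ((Submodule.span ℝ (⋃ n, Set.range (lp.single (E := X) 2 n)) :
      Submodule ℝ (lp X 2)) : Set (lp X 2)) = Set.univ := by
    rw [Set.eq_univ_iff_forall]
    intro f
    have h4 := lp.hasSum_single (p := 2) (by norm_num) f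
    refine mem_closure_of_tendsto h4 (Eventually.of_forall fun s => ?_)
    exact Submodule.sum_mem _ fun i _ => Submodule.subset_span
      (Set.mem_iUnion.mpr ⟨i, ⟨f i, rfl⟩⟩)
  rw [h3] at h2
  exact TopologicalSpace.isSeparable_univ_iff.mp h2

theorem lp_refl (h : ∀ n, Refl (X n)) : Refl (lp X 2) := by
  rw [refl_iff_exists]
  intro Φ
  -- coordinates
  have hx : ∀ n, ∃ x : X n, ∀ φ : StrongDual ℝ (X n),
      Φ (φ.comp (lp.evalCLM ℝ X 2 n)) = φ x := by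
    intro n
    obtain ⟨x, hx⟩ := refl_iff_exists.mp (h n)
      (Φ.comp (ContinuousLinearMap.precomp ℝ (lp.evalCLM ℝ X 2 n)))
    exact ⟨x, fun φ => hx φ⟩
  choose x hx using hx
  -- square summability
  have hsum : ∀ s : Finset ℕ, ∑ n ∈ s, ‖x n‖ ^ 2 ≤ ‖Φ‖ ^ 2 := by
    intro s
    set T : ℝ := ∑ n ∈ s, ‖x n‖ ^ 2 with hT
    have hT0 : 0 ≤ T := Finset.sum_nonneg fun _ _ => sq_nonneg _
    choose g hg1 hg2 using fun n => exists_dual_vector'' ℝ (x n)
    let ψ : StrongDual ℝ (lp X 2) := ∑ n ∈ s, ‖x n‖ • (g n).comp (lp.evalCLM ℝ X 2 n)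
    have hψ : Φ ψ = T := by
      simp only [ψ, map_sum, map_smul, smul_eq_mul, hx, hT]
      refine Finset.sum_congr rfl fun n _ => ?_
      rw [hg2 n]; simp [sq]
    have hψn : ‖ψ‖ ≤ √T := by
      refine ContinuousLinearMap.opNorm_le_bound _ (Real.sqrt_nonneg _) (fun z => ?_)
      have h1 : ‖ψ z‖ ≤ ∑ n ∈ s, ‖x n‖ * ‖z n‖ := by
        simp only [ψ, sum_apply, smul_apply]
        refine (norm_sum_le _ _).trans (Finset.sum_le_sum fun n _ => ?_)
        rw [norm_smul, norm_norm]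
        refine mul_le_mul_of_nonneg_left ?_ (norm_nonneg _)
        have := (g n).le_opNorm (z n)
        calc ‖(g n) (z n)‖ ≤ ‖g n‖ * ‖z n‖ := this
          _ ≤ 1 * ‖z n‖ := mul_le_mul_of_nonneg_right (hg1 n) (norm_nonneg _)
          _ = ‖z n‖ := one_mul _
      refine h1.trans ?_
      have h2 := Real.sum_mul_le_sqrt_mul_sqrt s (fun n => ‖x n‖) (fun n => ‖z n‖)
      refine h2.trans ?_
      refine mul_le_mul_of_nonneg_left ?_ (Real.sqrt_nonneg _)
      exact Real.sqrt_le_iff.mpr ⟨norm_nonneg _, sum_sq_le z s⟩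
    have h3 : T ≤ ‖Φ‖ * √T := by
      calc T = Φ ψ := hψ.symm
        _ ≤ ‖Φ ψ‖ := le_abs_self _
        _ ≤ ‖Φ‖ * ‖ψ‖ := Φ.le_opNorm _
        _ ≤ ‖Φ‖ * √T := mul_le_mul_of_nonneg_left hψn (norm_nonneg Φ)
    rcases hT0.eq_or_lt with h0 | h0
    · rw [← h0]; positivity
    · have hs : 0 < √T := Real.sqrt_pos.mpr h0
      have h4 : √T * √T = T := Real.mul_self_sqrt hT0
      have h5 : √T ≤ ‖Φ‖ := by
        by_contra hcon
        push Not at hcon
        nlinarith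
      nlinarith
  have hmem : Memℓp x 2 := by
    refine memℓp_gen' (C := ‖Φ‖ ^ 2) (fun s => ?_)
    simpa using hsum s
  refine ⟨⟨x, hmem⟩, fun φ => ?_⟩
  -- tails of φ
  set φn : (n : ℕ) → StrongDual ℝ (X n) :=
    fun n => φ.comp (lp.singleContinuousLinearMap ℝ X 2 n) with hφn
  have hz : ∀ n, ∃ z : X n, ‖z‖ ≤ 1 ∧ ‖φn n‖ / 2 ≤ φn n z := by
    intro n
    rcases (norm_nonneg (φn n)).eq_or_lt with h0 | h0
    · exact ⟨0, by simp, by simp [← h0]⟩
    · obtain ⟨z, hz1, hz2⟩ := (φn n).exists_lt_apply_of_lt_opNorm (r := ‖φn n‖ / 2) (by linarith)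
      rcases le_total 0 (φn n z) with h1 | h1
      · refine ⟨z, hz1.le, ?_⟩
        rw [Real.norm_of_nonneg h1] at hz2
        exact hz2.le
      · refine ⟨-z, by rw [norm_neg]; exact hz1.le, ?_⟩
        rw [Real.norm_of_nonpos h1] at hz2
        rw [map_neg]
        exact hz2.le
  choose z hz1 hz2 using hz
  have hsq : ∀ s : Finset ℕ, ∑ n ∈ s, ‖φn n‖ ^ 2 ≤ (2 * ‖φ‖) ^ 2 := by
    intro s
    set T : ℝ := ∑ n ∈ s, ‖φn n‖ ^ 2 with hT
    have hT0 : 0 ≤ T := Finset.sum_nonneg fun _ _ => sq_nonneg _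
    set w : lp X 2 := ∑ n ∈ s, lp.single 2 n (‖φn n‖ • z n) with hw
    have hwn : ‖w‖ ^ 2 ≤ T := by
      have h1 := lp.norm_sum_single (p := 2) (by norm_num) (fun n => ‖φn n‖ • z n) s
      have h2 : ‖w‖ ^ 2 = ∑ n ∈ s, ‖‖φn n‖ • z n‖ ^ 2 := by
        rw [show (2 : ENNReal).toReal = ((2 : ℕ) : ℝ) by norm_num] at h1
        simp only [Real.rpow_natCast] at h1
        exact h1
      rw [h2]
      refine Finset.sum_le_sum fun n _ => ?_
      rw [norm_smul, norm_norm, mul_pow]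
      have h3 : ‖z n‖ ^ 2 ≤ 1 := pow_le_one₀ (norm_nonneg _) (hz1 n)
      nlinarith [sq_nonneg ‖φn n‖]
    have hw2 : ‖w‖ ≤ √T := Real.le_sqrt_of_sq_le hwn
    have hφw : T / 2 ≤ φ w := by
      have h1 : φ w = ∑ n ∈ s, ‖φn n‖ * φn n (z n) := by
        rw [hw, map_sum]
        refine Finset.sum_congr rfl fun n _ => ?_
        have : φ (lp.single 2 n (‖φn n‖ • z n)) = φn n (‖φn n‖ • z n) := rfl
        rw [this, map_smul, smul_eq_mul]
      rw [h1, hT, Finset.sum_div]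
      refine Finset.sum_le_sum fun n _ => ?_
      have := mul_le_mul_of_nonneg_left (hz2 n) (norm_nonneg (φn n))
      nlinarith
    have h3 : T / 2 ≤ ‖φ‖ * √T := by
      calc T / 2 ≤ φ w := hφw
        _ ≤ ‖φ w‖ := le_abs_self _
        _ ≤ ‖φ‖ * ‖w‖ := φ.le_opNorm _
        _ ≤ ‖φ‖ * √T := mul_le_mul_of_nonneg_left hw2 (norm_nonneg _)
    rcases hT0.eq_or_lt with h0 | h0
    · rw [← h0]; positivity
    · have hs : 0 < √T := Real.sqrt_pos.mpr h0
      have h4 : √T * √T = T := Real.mul_self_sqrt hT0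
      have h5 : √T ≤ 2 * ‖φ‖ := by
        by_contra hcon
        push Not at hcon
        nlinarith
      nlinarith
  have hsummable : Summable (fun n => ‖φn n‖ ^ 2) :=
    summable_of_sum_le (fun n => sq_nonneg _) hsq
  -- approximation of φ
  have happrox : ∀ ε : ℝ, 0 < ε → ∃ s : Finset ℕ,
      ‖φ - ∑ n ∈ s, (φn n).comp (lp.evalCLM ℝ X 2 n)‖ ≤ ε := by
    intro ε hε
    obtain ⟨s, hs⟩ := (summable_iff_vanishing_norm.mp hsummable) (ε ^ 2) (by positivity)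
    refine ⟨s, ContinuousLinearMap.opNorm_le_bound _ hε.le (fun y => ?_)⟩
    have hys : HasSum (fun n => φn n (y n)) (φ y) := by
      have h1 := lp.hasSum_single (p := 2) (by norm_num) y
      exact h1.mapL φ
    have h2 : Tendsto (fun u : Finset ℕ => ‖∑ n ∈ u, φn n (y n) - ∑ n ∈ s, φn n (y n)‖) atTop
        (𝓝 ‖φ y - ∑ n ∈ s, φn n (y n)‖) := (Tendsto.sub_const hys _).norm
    have h3 : (φ - ∑ n ∈ s, (φn n).comp (lp.evalCLM ℝ X 2 n)) y =
        φ y - ∑ n ∈ s, φn n (y n) := by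
      simp only [sub_apply, sum_apply]
      rfl
    rw [h3]
    refine le_of_tendsto h2 ?_
    filter_upwards [eventually_ge_atTop s] with u hu
    have h4 : ∑ n ∈ u, φn n (y n) - ∑ n ∈ s, φn n (y n) = ∑ n ∈ u \ s, φn n (y n) := by
      rw [← Finset.sum_sdiff hu]; ring
    rw [h4]
    have h5 : ‖∑ n ∈ u \ s, φn n (y n)‖ ≤ ∑ n ∈ u \ s, ‖φn n‖ * ‖y n‖ :=
      (norm_sum_le _ _).trans (Finset.sum_le_sum fun n _ => (φn n).le_opNorm _)
    have h6 := Real.sum_mul_le_sqrt_mul_sqrt (u \ s) (fun n => ‖φn n‖) (fun n => ‖y n‖)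
    have h7 : √(∑ n ∈ u \ s, ‖φn n‖ ^ 2) ≤ ε := by
      apply Real.sqrt_le_iff.mpr
      refine ⟨hε.le, ?_⟩
      have h8 := hs (u \ s) Finset.sdiff_disjoint
      rw [Real.norm_of_nonneg (Finset.sum_nonneg fun _ _ => sq_nonneg _)] at h8
      exact h8.le
    have h9 : √(∑ n ∈ u \ s, ‖y n‖ ^ 2) ≤ ‖y‖ :=
      Real.sqrt_le_iff.mpr ⟨norm_nonneg _, sum_sq_le y _⟩
    calc _ ≤ _ := h5
      _ ≤ _ := h6
      _ ≤ ε * ‖y‖ := mul_le_mul h7 h9 (Real.sqrt_nonneg _) hε.le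
  -- conclusion
  set Ψ : StrongDual ℝ (StrongDual ℝ (lp X 2)) :=
    Φ - NormedSpace.inclusionInDoubleDual ℝ _ (⟨x, hmem⟩ : lp X 2) with hΨ
  have hΨ0 : ∀ (n : ℕ) (g : StrongDual ℝ (X n)), Ψ (g.comp (lp.evalCLM ℝ X 2 n)) = 0 := by
    intro n g
    rw [hΨ, sub_apply, hx n g, NormedSpace.dual_def]
    exact sub_self _
  have hΨφ : Ψ φ = 0 := by
    have hb : ∀ ε : ℝ, 0 < ε → ‖Ψ φ‖ ≤ ‖Ψ‖ * ε := by
      intro ε hε
      obtain ⟨s, hs⟩ := happrox ε hε
      have h1 : Ψ φ = Ψ (φ - ∑ n ∈ s, (φn n).comp (lp.evalCLM ℝ X 2 n)) := by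
        rw [map_sub, map_sum, Finset.sum_eq_zero (fun n _ => hΨ0 n (φn n)), sub_zero]
      rw [h1]
      exact (Ψ.le_opNorm _).trans (mul_le_mul_of_nonneg_left hs (norm_nonneg _))
    have h2 : ‖Ψ φ‖ ≤ 0 := by
      refine le_of_forall_pos_le_add fun δ hδ => ?_
      have h3 := hb (δ / (‖Ψ‖ + 1)) (by positivity)
      have h4 : ‖Ψ‖ * (δ / (‖Ψ‖ + 1)) ≤ δ := by
        rw [mul_div_assoc', div_le_iff₀ (by positivity)]
        nlinarith [norm_nonneg Ψ]
      linarith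
    exact norm_le_zero_iff.mp h2
  rw [hΨ, sub_apply, sub_eq_zero] at hΨφ
  rw [hΨφ]
  rfl

end sum

end Crest.Agent.Row125
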