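import Mathlib
import Crest.Agent.Row125.Lp2

set_option autoImplicit false

namespace Crest.Agent.Row125

open Crest.AnalysisR Crest.AnalysisR.TreePotential Filter Topology

/-- depth-limited global tests. -/
def PD (n : ℕ) (f : List ℕ → ℝ) : Prop :=
  (∀ s, |pathPotential f s| ≤ 1) ∧ (∀ A : Finset (List ℕ), ∑ u ∈ A, f u ^ 2 ≤ 1) ∧
    ∀ s, n + 1 < s.length → f s = 0

theorem pathPotential_single' (s : List ℕ) (u : List ℕ) :
    pathPotential (Pi.single s 1) u = if s <:+ u then 1 else 0 := by
  induction u with
  | nil =>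
    simp only [pathPotential, List.suffix_nil]
    by_cases h : s = []
    · subst h; simp
    · have : ([] : List ℕ) ≠ s := fun h' => h h'.symm
      simp [h, this]
  | cons a v ih =>
    rw [pathPotential, ih]
    simp only [List.suffix_cons_iff]
    by_cases h : s = a :: v
    · subst h
      have h2 : ¬ (a :: v) <:+ v := by
        intro h3
        have := h3.length_le
        simp at this
      simp [h2]
    · have h' : a :: v ≠ s := fun h' => h h'.symm
      simp [h, h']

theorem goodPD (n : ℕ) : GoodFamily (PD n) {s | s.length ≤ n + 1} where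
  pot f hf := hf.1
  zero := by
    have hp : ∀ s : List ℕ, pathPotential (fun _ => 0) s = 0 := by
      intro s
      induction s with
      | nil => rfl
      | cons a v ih => simp [pathPotential, ih]
    exact ⟨fun s => by rw [hp]; simp, fun A => by simp, fun s _ => rfl⟩
  neg f hf := by
    have hp : ∀ s : List ℕ, pathPotential (fun s => -f s) s = -pathPotential f s := by
      intro s
      induction s with
      | nil => rfl
      | cons a v ih => simp [pathPotential, ih]; ring
    refine ⟨fun s => by rw [hp, abs_neg]; exact hf.1 s, ?_, ?_⟩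
    · simpa using hf.2.1
    · intro s hs
      simp only [hf.2.2 s hs, neg_zero]
  single s hs := by
    refine ⟨fun u => ?_, ?_, ?_⟩
    · rw [pathPotential_single']
      split_ifs <;> simp
    · intro A
      by_cases h : s ∈ A
      · rw [Finset.sum_eq_single_of_mem s h]
        · simp
        · intro j _ hj
          simp [hj]
      · rw [Finset.sum_eq_zero]
        · norm_num
        · intro i hi
          have : i ≠ s := fun h' => h (h' ▸ hi)
          simp [this]
    · intro u hu
      have : u ≠ s := by
        rintro rfl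
        have hs' : u.length ≤ n + 1 := hs
        omega
      simp [this]
  off f hf s hs := by
    refine hf.2.2 s ?_
    have hs' : ¬ (s.length ≤ n + 1) := hs
    omega
  child f hf r A := by
    have h := hf.2.1 (A.image fun n => n :: r)
    rwa [Finset.sum_image (by simp)] at h
  mix f g h hf hg S hS0 α β hα hβ hαβ h1 h2 h3 := by
    refine ⟨h3, ?_, ?_⟩
    · intro A
      calc ∑ u ∈ A, h u ^ 2 ≤ ∑ u ∈ A, (α ^ 2 * f u ^ 2 + β ^ 2 * g u ^ 2) := by
            refine Finset.sum_le_sum fun u _ => ?_
            by_cases hi : u ∈ S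
            · rw [h1 _ hi]
              nlinarith [mul_nonneg (sq_nonneg β) (sq_nonneg (g u))]
            · have h3 := h2 _ hi
              have h4 : h u ^ 2 ≤ (β * |g u|) ^ 2 := by
                rw [← sq_abs]
                exact pow_le_pow_left₀ (abs_nonneg _) h3 2
              rw [mul_pow, sq_abs] at h4
              nlinarith [mul_nonneg (sq_nonneg α) (sq_nonneg (f u))]
        _ = α ^ 2 * ∑ u ∈ A, f u ^ 2 + β ^ 2 * ∑ u ∈ A, g u ^ 2 := by
            rw [Finset.sum_add_distrib, Finset.mul_sum, Finset.mul_sum]
        _ ≤ α ^ 2 * 1 + β ^ 2 * 1 := by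
            have := sq_nonneg α
            have := sq_nonneg β
            have := hf.2.1 A
            have := hg.2.1 A
            nlinarith
        _ ≤ 1 := by linarith
    · intro s hs
      by_cases hsS : s ∈ S
      · rw [h1 s hsS, hf.2.2 s hs, mul_zero]
      · have := h2 s hsS
        rw [hg.2.2 s hs, abs_zero, mul_zero] at this
        exact abs_eq_zero.mp (le_antisymm this (abs_nonneg _))

theorem bddPD (n : ℕ) : ∀ f, PD n f → ∀ s, |f s| ≤ 2 :=
  fun f hf s => abs_le_two_of_pot f hf.1 s

/-- the depth-`n` space. -/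
noncomputable abbrev DS (n : ℕ) : Type := gspace (bddPD n)

theorem pot_bound (n : ℕ) (f : List ℕ → ℝ) (c : ℝ) (hc : 0 ≤ c) (h1 : ∀ s, |f s| ≤ c)
    (h2 : ∀ s, n + 1 < s.length → f s = 0) (s : List ℕ) :
    |pathPotential f s| ≤ ((min s.length (n + 1) : ℕ) + 1) * c := by
  induction s with
  | nil => simpa [pathPotential] using h1 []
  | cons a v ih =>
    rw [pathPotential]
    by_cases h : n + 1 < (a :: v).length
    · rw [h2 _ h, add_zero]
      have h3 : min v.length (n + 1) ≤ min (a :: v).length (n + 1) := by
        simp only [List.length_cons]; omega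
      have h4 : ((min v.length (n + 1) : ℕ) : ℝ) ≤ (min (a :: v).length (n + 1) : ℕ) := by
        exact_mod_cast h3
      refine ih.trans ?_
      exact mul_le_mul_of_nonneg_right (by linarith) hc
    · have h3 : min (a :: v).length (n + 1) = min v.length (n + 1) + 1 := by
        simp only [List.length_cons] at h ⊢; omega
      rw [h3]
      push_cast
      refine (abs_add_le _ _).trans ?_
      have h4 := h1 (a :: v)
      push_cast at ih
      linarith

section refl

variable (n : ℕ)

/-- index set of active vertices. -/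
abbrev Idx (n : ℕ) : Type := {s : List ℕ // s.length ≤ n + 1}

/-- Hilbert space. -/
abbrev HS (n : ℕ) : Type := lp (fun _ : Idx n => ℝ) 2

/-- test as an element of the Hilbert space. -/
noncomputable def tvec (n : ℕ) (f : {f // PD n f}) : HS n :=
  ⟨fun s => f.1 s.1, memℓp_gen' (C := 1) (fun A => by
    have h := f.2.2.1 (A.map ⟨Subtype.val, Subtype.val_injective⟩)
    rw [Finset.sum_map] at h
    simpa using h)⟩

theorem norm_tvec_le (f : {f // PD n f}) : ‖tvec n f‖ ≤ 1 := by
  refine lp.norm_le_of_forall_sum_le (by norm_num) (by norm_num) (fun A => ?_)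
  have h := f.2.2.1 (A.map ⟨Subtype.val, Subtype.val_injective⟩)
  rw [Finset.sum_map] at h
  simpa [tvec] using h

/-- the operator from the Hilbert space to bounded functions on tests. -/
noncomputable def TT (n : ℕ) : HS n →L[ℝ] lp (fun _ : {f // PD n f} => ℝ) ⊤ :=
  LinearMap.mkContinuous
    { toFun := fun x => ⟨fun f => inner ℝ (tvec n f) x, memℓp_infty ⟨‖x‖, by
        rintro _ ⟨f, rfl⟩
        calc ‖inner ℝ (tvec n f) x‖ ≤ ‖tvec n f‖ * ‖x‖ := norm_inner_le_norm _ _
          _ ≤ 1 * ‖x‖ := mul_le_mul_of_nonneg_right (norm_tvec_le n f) (norm_nonneg _)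
          _ = ‖x‖ := one_mul _⟩⟩
      map_add' := fun x y => by
        ext f
        exact inner_add_right _ _ _
      map_smul' := fun c x => by
        ext f
        exact real_inner_smul_right _ _ _ } 1 (fun x => by
    rw [one_mul]
    refine lp.norm_le_of_forall_le (norm_nonneg _) (fun f => ?_)
    calc ‖inner ℝ (tvec n f) x‖ ≤ ‖tvec n f‖ * ‖x‖ := norm_inner_le_norm _ _
      _ ≤ 1 * ‖x‖ := mul_le_mul_of_nonneg_right (norm_tvec_le n f) (norm_nonneg _)
      _ = ‖x‖ := one_mul _)

theorem TT_apply (x : HS n) (f : {f // PD n f}) : TT n x f = inner ℝ (tvec n f) x := rfl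

theorem TT_single (s : Idx n) : TT n (lp.single 2 s 1) = gcoord (bddPD n) s.1 := by
  ext f
  rw [TT_apply, lp.inner_single_right]
  simp [tvec, gcoord]

theorem TT_lower (x : HS n) : ‖x‖ ≤ (n + 2) * ‖TT n x‖ := by
  classical
  rcases (norm_nonneg x).eq_or_lt with h0 | h0
  · rw [← h0]; positivity
  · set c : ℝ := ‖x‖ * (n + 2) with hc
    have hcpos : 0 < c := by positivity
    let g : List ℕ → ℝ := fun s => if h : s.length ≤ n + 1 then x ⟨s, h⟩ / c else 0
    have hg0 : ∀ s, n + 1 < s.length → g s = 0 := by
      intro s hs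
      have : ¬ (s.length ≤ n + 1) := by omega
      simp [g, this]
    have hg1 : ∀ s, |g s| ≤ 1 / (n + 2) := by
      intro s
      by_cases h : s.length ≤ n + 1
      · simp only [g, h, dif_pos]
        rw [abs_div, abs_of_pos hcpos, hc, div_le_div_iff₀ (by positivity) (by positivity)]
        have h2 : |x ⟨s, h⟩| ≤ ‖x‖ := lp.norm_apply_le_norm (by norm_num) x ⟨s, h⟩
        nlinarith
      · simp only [g, h, dif_neg, not_false_eq_true, abs_zero]
        positivity
    have hPD : PD n g := by
      refine ⟨fun s => ?_, fun A => ?_, hg0⟩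
      · have h1 := pot_bound n g (1 / (n + 2)) (by positivity) hg1 hg0 s
        refine h1.trans ?_
        rw [mul_one_div, div_le_one (by positivity)]
        have h2 : min s.length (n + 1) ≤ n + 1 := min_le_right _ _
        have h3 : ((min s.length (n + 1) : ℕ) : ℝ) ≤ (n : ℝ) + 1 := by exact_mod_cast h2
        linarith
      · -- ℓ² bound
        have h1 : ∑ u ∈ A, g u ^ 2 = ∑ u ∈ A.filter (fun u => u.length ≤ n + 1), g u ^ 2 := by
          rw [Finset.sum_filter]
          refine Finset.sum_congr rfl fun u _ => ?_
          split_ifs with h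
          · rfl
          · rw [hg0 u (by omega)]; norm_num
        have h2 : ∑ u ∈ A.filter (fun u => u.length ≤ n + 1), g u ^ 2 =
            ∑ u ∈ (A.subtype (fun u => u.length ≤ n + 1)), g u.1 ^ 2 := by
          exact (Finset.sum_subtype_eq_sum_filter (p := fun u : List ℕ => u.length ≤ n + 1)
            (fun u => g u ^ 2)).symm
        have h3 : ∑ u ∈ (A.subtype (fun u => u.length ≤ n + 1)), g u.1 ^ 2 =
            (∑ u ∈ (A.subtype (fun u => u.length ≤ n + 1)), (x u) ^ 2) / c ^ 2 := by
          rw [Finset.sum_div]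
          refine Finset.sum_congr rfl fun u _ => ?_
          have : g u.1 = x u / c := by simp [g, u.2]
          rw [this, div_pow]
        have h4 : ∑ u ∈ (A.subtype (fun u => u.length ≤ n + 1)), (x u) ^ 2 ≤ ‖x‖ ^ 2 := by
          have := lp.sum_rpow_le_norm_rpow (p := 2) (by norm_num) x
            (A.subtype (fun u => u.length ≤ n + 1))
          simpa using this
        rw [h1, h2, h3, div_le_one (by positivity)]
        refine h4.trans ?_
        rw [hc, mul_pow]
        have : (1 : ℝ) ≤ (n + 2) ^ 2 := by
          have : (0 : ℝ) ≤ n := Nat.cast_nonneg n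
          nlinarith
        nlinarith [sq_nonneg ‖x‖]
    have htv : tvec n ⟨g, hPD⟩ = (1 / c) • x := by
      ext s
      change g s.1 = (1 / c) * x s
      simp only [g, s.2, dif_pos]
      ring
    have h1 : TT n x ⟨g, hPD⟩ = (1 / c) * ‖x‖ ^ 2 := by
      rw [TT_apply, htv, real_inner_smul_left, real_inner_self_eq_norm_sq]
    have h2 : ‖TT n x ⟨g, hPD⟩‖ ≤ ‖TT n x‖ := lp.norm_apply_le_norm (by simp) _ _
    rw [h1, Real.norm_of_nonneg (by positivity)] at h2
    have h3 : 1 / c * ‖x‖ ^ 2 = ‖x‖ / (n + 2) := by
      rw [hc]; field_simp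
    rw [h3, div_le_iff₀ (by positivity)] at h2
    linarith

theorem TT_mem (x : HS n) : TT n x ∈ gspace (bddPD n) := by
  have h1 := lp.hasSum_single (p := 2) (by norm_num) x
  have h2 := h1.mapL (TT n)
  refine (Submodule.isClosed_topologicalClosure _).mem_of_tendsto h2
    (Eventually.of_forall fun A => ?_)
  refine Submodule.sum_mem _ fun s _ => ?_
  have h3 : lp.single 2 s (x s) = x s • (lp.single 2 s (1 : ℝ) : HS n) := by
    rw [← lp.single_smul]; simp
  rw [h3, map_smul, TT_single]
  exact Submodule.smul_mem _ _ (Submodule.le_topologicalClosure _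
    (Submodule.subset_span ⟨s.1, rfl⟩))

theorem DS_refl : Refl (DS n) := by
  let T' : HS n →L[ℝ] DS n := (TT n).codRestrict (gspace (bddPD n)) (TT_mem n)
  have hanti : AntilipschitzWith ⟨(n : ℝ) + 2, by positivity⟩ (TT n) :=
    (TT n).antilipschitz_of_bound (fun x => TT_lower n x)
  have hinj : Function.Injective (TT n) := hanti.injective
  have hclosed : IsClosed (Set.range (TT n)) :=
    hanti.isClosed_range (TT n).uniformContinuous
  have hrange : ∀ y ∈ gspace (bddPD n), y ∈ Set.range (TT n) := by
    have h1 : (Submodule.span ℝ (Set.range (gcoord (bddPD n)))) ≤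
        LinearMap.range (TT n).toLinearMap := by
      rw [Submodule.span_le]
      rintro _ ⟨s, rfl⟩
      by_cases hs : s.length ≤ n + 1
      · exact ⟨lp.single 2 ⟨s, hs⟩ 1, TT_single n ⟨s, hs⟩⟩
      · have : gcoord (bddPD n) s = 0 := by
          ext f
          exact f.2.2.2 s (by omega)
        rw [this]
        exact Submodule.zero_mem _
    have h2 : IsClosed ((LinearMap.range (TT n).toLinearMap :
        Submodule ℝ (lp (fun _ : {f // PD n f} => ℝ) ⊤)) :
        Set (lp (fun _ : {f // PD n f} => ℝ) ⊤)) := by
      have : ((LinearMap.range (TT n).toLinearMap :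
        Submodule ℝ (lp (fun _ : {f // PD n f} => ℝ) ⊤)) :
        Set (lp (fun _ : {f // PD n f} => ℝ) ⊤)) = Set.range (TT n) := by
        ext y; rfl
      rw [this]
      exact hclosed
    have h3 := Submodule.topologicalClosure_minimal _ h1 h2
    intro y hy
    exact h3 hy
  have hker : LinearMap.ker T'.toLinearMap = ⊥ := by
    rw [LinearMap.ker_eq_bot]
    intro x y hxy
    apply hinj
    have := congrArg Subtype.val hxy
    exact this
  have hran : LinearMap.range T'.toLinearMap = ⊤ := by
    rw [LinearMap.range_eq_top]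
    intro y
    obtain ⟨x, hx⟩ := hrange y.1 y.2
    exact ⟨x, Subtype.ext hx⟩
  exact refl_of_equiv (ContinuousLinearEquiv.ofBijective T' hker hran) refl_hilbert

end refl

end Crest.Agent.Row125
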