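import Mathlib
import Crest.Prelude.Def_AsymptoticConvexity
import Crest.Prelude.Def_Diamond
import Crest.Agent.Row125.GenSpace

set_option autoImplicit false

namespace Crest.Agent.Row125

open Crest.AnalysisR Filter Topology

/-- Lipschitz functions bound the graph distance from below. -/
theorem lip_le_dist {V : Type*} (G : SimpleGraph V) (ψ : V → ℝ)
    (h : ∀ u v, G.Adj u v → |ψ u - ψ v| ≤ 1) (u v : V) (hr : G.Reachable u v) :
    |ψ u - ψ v| ≤ (G.dist u v : ℝ) := by
  obtain ⟨w, hw⟩ := hr.exists_walk_length_eq_dist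
  rw [← hw]
  clear hw hr
  induction w with
  | nil => simp
  | cons hadj w ih =>
    rename_i a b c
    rw [SimpleGraph.Walk.length_cons]
    push_cast
    have h1 := h _ _ hadj
    have : ψ a - ψ c = (ψ a - ψ b) + (ψ b - ψ c) := by ring
    rw [this]
    refine (abs_add_le _ _).trans ?_
    linarith

theorem src_ne_tgt (k : ℕ) (e : DiamondEdge k) : diamondSrc k e ≠ diamondTgt k e := by
  cases k with
  | zero => exact Bool.false_ne_true
  | succ k =>
    obtain ⟨e, i, b⟩ := e
    cases b
    · exact Sum.inl_ne_inr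
    · exact Sum.inr_ne_inl

theorem adj_edge (k : ℕ) (e : DiamondEdge k) :
    (diamondGraph k).Adj (diamondSrc k e) (diamondTgt k e) := by
  rw [diamondGraph, SimpleGraph.fromRel_adj]
  exact ⟨src_ne_tgt k e, Or.inl ⟨e, rfl, rfl⟩⟩

theorem adj_iff (k : ℕ) (u v : DiamondVertex k) (h : (diamondGraph k).Adj u v) :
    ∃ e, (diamondSrc k e = u ∧ diamondTgt k e = v) ∨ (diamondSrc k e = v ∧ diamondTgt k e = u) := by
  rw [diamondGraph, SimpleGraph.fromRel_adj] at h
  rcases h.2 with ⟨e, h1, h2⟩ | ⟨e, h1, h2⟩
  · exact ⟨e, Or.inl ⟨h1, h2⟩⟩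
  · exact ⟨e, Or.inr ⟨h1, h2⟩⟩

theorem adj_src_mid (k : ℕ) (e : DiamondEdge k) (i : ℕ) :
    (diamondGraph (k + 1)).Adj (Sum.inl (diamondSrc k e)) (Sum.inr (e, i)) :=
  adj_edge (k + 1) (e, i, false)

theorem adj_mid_tgt (k : ℕ) (e : DiamondEdge k) (i : ℕ) :
    (diamondGraph (k + 1)).Adj (Sum.inr (e, i)) (Sum.inl (diamondTgt k e)) :=
  adj_edge (k + 1) (e, i, true)

theorem reach_all (k : ℕ) (u v : DiamondVertex k) : (diamondGraph k).Reachable u v := by
  induction k with
  | zero =>
    have h : (diamondGraph 0).Adj (false : Bool) (true : Bool) := adj_edge 0 ()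
    cases u <;> cases v
    · exact SimpleGraph.Reachable.refl _
    · exact h.reachable
    · exact h.symm.reachable
    · exact SimpleGraph.Reachable.refl _
  | succ k ih =>
    have hinl : ∀ a b : DiamondVertex k,
        (diamondGraph (k + 1)).Reachable (Sum.inl a) (Sum.inl b) := by
      intro a b
      obtain ⟨w⟩ := ih a b
      induction w with
      | nil => exact SimpleGraph.Reachable.refl _
      | cons hadj w ih2 =>
        obtain ⟨e, ⟨h1, h2⟩ | ⟨h1, h2⟩⟩ := adj_iff k _ _ hadj
        · subst h1; subst h2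
          exact ((adj_src_mid k e 0).reachable.trans (adj_mid_tgt k e 0).reachable).trans ih2
        · subst h1; subst h2
          exact ((adj_mid_tgt k e 0).symm.reachable.trans
            (adj_src_mid k e 0).symm.reachable).trans ih2
    have hinr : ∀ (x : DiamondVertex (k + 1)), ∃ a : DiamondVertex k,
        (diamondGraph (k + 1)).Reachable x (Sum.inl a) := by
      intro x
      cases x with
      | inl a => exact ⟨a, SimpleGraph.Reachable.refl _⟩
      | inr p => exact ⟨diamondTgt k p.1, (adj_mid_tgt k p.1 p.2).reachable⟩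
    obtain ⟨a, ha⟩ := hinr u
    obtain ⟨b, hb⟩ := hinr v
    exact (ha.trans (hinl a b)).trans hb.symm

theorem dist_edge_le (k : ℕ) (e : DiamondEdge k) :
    diamondDist k (diamondSrc k e) (diamondTgt k e) ≤ 1 :=
  (SimpleGraph.dist_eq_one_iff_adj.mpr (adj_edge k e)).le

theorem dist_inl (k : ℕ) (u v : DiamondVertex k) :
    2 * (diamondDist k u v : ℝ) ≤ (diamondDist (k + 1) (Sum.inl u) (Sum.inl v) : ℝ) := by
  let ψ : DiamondVertex (k + 1) → ℝ := fun x => match x with
    | Sum.inl w => 2 * (diamondDist k u w : ℝ)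
    | Sum.inr p => (diamondDist k u (diamondSrc k p.1) : ℝ) + diamondDist k u (diamondTgt k p.1)
  have hconn : (diamondGraph k).Connected := by
    have : Nonempty (DiamondVertex k) := ⟨u⟩
    exact ⟨reach_all k⟩
  have hst : ∀ e : DiamondEdge k, |(diamondDist k u (diamondSrc k e) : ℝ) -
      diamondDist k u (diamondTgt k e)| ≤ 1 := by
    intro e
    have h1 : diamondDist k u (diamondSrc k e) ≤
        diamondDist k u (diamondTgt k e) + diamondDist k (diamondTgt k e) (diamondSrc k e) :=
      hconn.dist_triangle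
    have h2 : diamondDist k u (diamondTgt k e) ≤
        diamondDist k u (diamondSrc k e) + diamondDist k (diamondSrc k e) (diamondTgt k e) :=
      hconn.dist_triangle
    have h3 : diamondDist k (diamondTgt k e) (diamondSrc k e) ≤ 1 := by
      have := dist_edge_le k e
      rwa [diamondDist, SimpleGraph.dist_comm] at this
    have h4 := dist_edge_le k e
    rw [abs_le]
    constructor
    · have : diamondDist k u (diamondTgt k e) ≤ diamondDist k u (diamondSrc k e) + 1 := by omega
      have : (diamondDist k u (diamondTgt k e) : ℝ) ≤ diamondDist k u (diamondSrc k e) + 1 := by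
        exact_mod_cast this
      linarith
    · have : diamondDist k u (diamondSrc k e) ≤ diamondDist k u (diamondTgt k e) + 1 := by omega
      have : (diamondDist k u (diamondSrc k e) : ℝ) ≤ diamondDist k u (diamondTgt k e) + 1 := by
        exact_mod_cast this
      linarith
  have hlip : ∀ x y, (diamondGraph (k + 1)).Adj x y → |ψ x - ψ y| ≤ 1 := by
    have hedge : ∀ e : DiamondEdge (k + 1),
        |ψ (diamondSrc (k + 1) e) - ψ (diamondTgt (k + 1) e)| ≤ 1 := by
      rintro ⟨e, i, b⟩
      have h := hst e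
      cases b
      · change |2 * (diamondDist k u (diamondSrc k e) : ℝ) -
          ((diamondDist k u (diamondSrc k e) : ℝ) + diamondDist k u (diamondTgt k e))| ≤ 1
        rw [show 2 * (diamondDist k u (diamondSrc k e) : ℝ) -
          ((diamondDist k u (diamondSrc k e) : ℝ) + diamondDist k u (diamondTgt k e)) =
          (diamondDist k u (diamondSrc k e) : ℝ) - diamondDist k u (diamondTgt k e) by ring]
        exact h
      · change |((diamondDist k u (diamondSrc k e) : ℝ) + diamondDist k u (diamondTgt k e)) -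
          2 * (diamondDist k u (diamondTgt k e) : ℝ)| ≤ 1
        rw [show ((diamondDist k u (diamondSrc k e) : ℝ) + diamondDist k u (diamondTgt k e)) -
          2 * (diamondDist k u (diamondTgt k e) : ℝ) =
          (diamondDist k u (diamondSrc k e) : ℝ) - diamondDist k u (diamondTgt k e) by ring]
        exact h
    intro x y hxy
    obtain ⟨e, ⟨h1, h2⟩ | ⟨h1, h2⟩⟩ := adj_iff (k + 1) _ _ hxy
    · subst h1; subst h2; exact hedge e
    · subst h1; subst h2; rw [abs_sub_comm]; exact hedge e
  have h := lip_le_dist (diamondGraph (k + 1)) ψ hlip (Sum.inl u) (Sum.inl v) (reach_all _ _ _)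
  have h0 : ψ (Sum.inl u) = 0 := by
    change 2 * (diamondDist k u u : ℝ) = 0
    simp [diamondDist]
  have h1 : ψ (Sum.inl v) = 2 * (diamondDist k u v : ℝ) := rfl
  rw [h0, h1, zero_sub, abs_neg] at h
  exact (le_abs_self _).trans h

theorem dist_mid (k : ℕ) (e : DiamondEdge k) (i j : ℕ) (hij : i ≠ j) :
    (2 : ℝ) ≤ (diamondDist (k + 1) (Sum.inr (e, i)) (Sum.inr (e, j)) : ℝ) := by
  have hne : (Sum.inr (e, i) : DiamondVertex (k + 1)) ≠ Sum.inr (e, j) := by
    intro h
    have := Sum.inr_injective h
    exact hij (Prod.mk.inj this).2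
  have h1 : diamondDist (k + 1) (Sum.inr (e, i)) (Sum.inr (e, j)) ≠ 0 := by
    intro h
    have := (SimpleGraph.dist_eq_zero_iff_eq_or_not_reachable).mp h
    rcases this with h | h
    · exact hne h
    · exact h (reach_all _ _ _)
  have h2 : diamondDist (k + 1) (Sum.inr (e, i)) (Sum.inr (e, j)) ≠ 1 := by
    intro h
    have hadj := SimpleGraph.dist_eq_one_iff_adj.mp h
    obtain ⟨⟨e', i', b⟩, ⟨h1, h2⟩ | ⟨h1, h2⟩⟩ := adj_iff (k + 1) _ _ hadj
    · cases b
      · exact Sum.inl_ne_inr h1
      · exact Sum.inl_ne_inr h2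
    · cases b
      · exact Sum.inl_ne_inr h1
      · exact Sum.inl_ne_inr h2
  have h3 : 2 ≤ diamondDist (k + 1) (Sum.inr (e, i)) (Sum.inr (e, j)) := by omega
  exact_mod_cast h3

end Crest.Agent.Row125
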