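import Mathlib
import Crest.Agent.Row125.DiamondAux

set_option autoImplicit false

namespace Crest.Agent.Row125

open Crest.AnalysisR Filter Topology

theorem exists_close_pair {X : Type*} [NormedAddCommGroup X] [NormedSpace ℝ X]
    (S : Submodule ℝ X) (hS : IsClosed (S : Set X)) (hfin : FiniteDimensional ℝ (X ⧸ S))
    (m : ℕ → X) (R : ℝ) (hR : ∀ i, ‖m i‖ ≤ R) (ε : ℝ) (hε : 0 < ε) :
    ∃ i j, i ≠ j ∧ ∃ y ∈ S, ‖(m i - m j) - y‖ < ε := by
  have : IsClosed (S : Set X) := hS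
  have hproper : ProperSpace (X ⧸ S) := FiniteDimensional.proper ℝ (X ⧸ S)
  let π : X →L[ℝ] (X ⧸ S) := S.mkQL
  have hbdd : Bornology.IsBounded (Metric.closedBall (0 : X ⧸ S) (‖π‖ * R)) :=
    Metric.isBounded_closedBall
  obtain ⟨a, _, φ, hφ, hlim⟩ := tendsto_subseq_of_bounded hbdd (x := fun i => π (m i)) (fun i => by
    rw [mem_closedBall_zero_iff]
    exact (π.le_opNorm _).trans (mul_le_mul_of_nonneg_left (hR i) (norm_nonneg _)))
  have hc := hlim.cauchySeq
  obtain ⟨N, hN⟩ := Metric.cauchySeq_iff'.mp hc ε hε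
  have h1 := hN (N + 1) (by omega)
  rw [dist_eq_norm] at h1
  refine ⟨φ (N + 1), φ N, (hφ.injective.ne (by omega)), ?_⟩
  have h2 : ‖(Submodule.Quotient.mk (m (φ (N + 1)) - m (φ N)) : X ⧸ S)‖ < ε := by
    have : (Submodule.Quotient.mk (m (φ (N + 1)) - m (φ N)) : X ⧸ S) =
        π (m (φ (N + 1))) - π (m (φ N)) := by
      rw [← map_sub]; rfl
    rw [this]; exact h1
  obtain ⟨z, hz, hzn⟩ := QuotientAddGroup.norm_lt_iff.mp h2
  refine ⟨(m (φ (N + 1)) - m (φ N)) - z, ?_, by simpa using hzn⟩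
  have h3 : (Submodule.Quotient.mk (m (φ (N + 1)) - m (φ N)) : X ⧸ S) =
      Submodule.Quotient.mk z := hz.symm
  exact (Submodule.Quotient.eq S).mp h3

theorem diamond_step {X : Type*} [NormedAddCommGroup X] [NormedSpace ℝ X] (hA : AMP X)
    (p q : X) (m : ℕ → X) (ρ L : ℝ) (hρ : 0 < ρ) (h1 : ∀ i, ‖m i - p‖ ≤ L)
    (h2 : ∀ i, ‖q - m i‖ ≤ L) (h3 : ∀ i j, i ≠ j → 2 * ρ ≤ ‖m i - m j‖) :
    ‖q - p‖ ^ 2 / 4 + ρ ^ 2 / 4 ≤ L ^ 2 := by
  set x : X := (1 / 2 : ℝ) • (q - p) with hx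
  have hxn : ‖x‖ ^ 2 = ‖q - p‖ ^ 2 / 4 := by
    rw [hx, norm_smul, mul_pow]; norm_num; ring
  have hL : 0 ≤ L := (norm_nonneg _).trans (h1 0)
  have key : ∀ ε : ℝ, 0 < ε → ε < ρ → ‖x‖ ^ 2 + (ρ - ε) ^ 2 / 4 ≤ (L + 2 * ε) ^ 2 := by
    intro ε hε hερ
    obtain ⟨S, hS, hfin, hy⟩ := hA x ε hε
    obtain ⟨i, j, hij, y', hy'S, hy'⟩ := exists_close_pair S hS hfin m (‖p‖ + L) (fun i => by
      have : m i = p + (m i - p) := by abel
      rw [this]
      exact (norm_add_le _ _).trans (by linarith [h1 i])) (2 * ε) (by positivity)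
    set y : X := (1 / 2 : ℝ) • y' with hydef
    have hyS : y ∈ S := S.smul_mem _ hy'S
    set d : X := (1 / 2 : ℝ) • (m i - m j) with hd
    have hdy : ‖d - y‖ < ε := by
      rw [hd, hydef, ← smul_sub, norm_smul]
      norm_num
      linarith
    have hdn : ρ ≤ ‖d‖ := by
      rw [hd, norm_smul]
      have := h3 i j hij
      norm_num
      linarith
    have hyn : ρ - ε ≤ ‖y‖ := by
      have : ‖d‖ ≤ ‖d - y‖ + ‖y‖ := by
        simpa using norm_add_le (d - y) y
      linarith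
    have hplus : ‖x + y‖ ≤ L + ε := by
      have e1 : x + y = (1 / 2 : ℝ) • ((m i - p) + (q - m j)) - (d - y) := by
        rw [hx, hd, ← sub_eq_zero]
        module
      rw [e1]
      refine (norm_sub_le _ _).trans ?_
      have e2 : ‖(1 / 2 : ℝ) • ((m i - p) + (q - m j))‖ ≤ L := by
        rw [norm_smul]
        have := norm_add_le (m i - p) (q - m j)
        have := h1 i
        have := h2 j
        norm_num
        linarith
      linarith
    have hminus : ‖x - y‖ ≤ L + ε := by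
      have e1 : x - y = (1 / 2 : ℝ) • ((m j - p) + (q - m i)) + (d - y) := by
        rw [hx, hd, ← sub_eq_zero]
        module
      rw [e1]
      refine (norm_add_le _ _).trans ?_
      have e2 : ‖(1 / 2 : ℝ) • ((m j - p) + (q - m i))‖ ≤ L := by
        rw [norm_smul]
        have := norm_add_le (m j - p) (q - m i)
        have := h1 j
        have := h2 i
        norm_num
        linarith
      linarith
    have h4 := hy y hyS
    have h5 : √(‖x‖ ^ 2 + ‖y‖ ^ 2 / 4) ≤ L + 2 * ε := by linarith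
    have h6 : ‖x‖ ^ 2 + ‖y‖ ^ 2 / 4 ≤ (L + 2 * ε) ^ 2 := by
      rw [Real.sqrt_le_left (by positivity)] at h5
      exact h5
    have h7 : (ρ - ε) ^ 2 ≤ ‖y‖ ^ 2 := pow_le_pow_left₀ (by linarith) hyn 2
    linarith
  have hcont : Tendsto (fun ε : ℝ => (L + 2 * ε) ^ 2 - (‖x‖ ^ 2 + (ρ - ε) ^ 2 / 4))
      (𝓝[>] 0) (𝓝 ((L + 2 * 0) ^ 2 - (‖x‖ ^ 2 + (ρ - 0) ^ 2 / 4))) := by
    have : Continuous (fun ε : ℝ => (L + 2 * ε) ^ 2 - (‖x‖ ^ 2 + (ρ - ε) ^ 2 / 4)) := by
      fun_prop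
    exact (this.tendsto 0).mono_left nhdsWithin_le_nhds
  have h0 : 0 ≤ (L + 2 * 0) ^ 2 - (‖x‖ ^ 2 + (ρ - 0) ^ 2 / 4) := by
    refine ge_of_tendsto hcont ?_
    have : Set.Ioo (0 : ℝ) ρ ∈ 𝓝[>] (0 : ℝ) := Ioo_mem_nhdsGT hρ
    filter_upwards [this] with ε hε
    have := key ε hε.1 hε.2
    linarith
  simp only [mul_zero, add_zero, sub_zero] at h0
  linarith

theorem diamond_bound {X : Type*} [NormedAddCommGroup X] [NormedSpace ℝ X] (hA : AMP X)
    (k : ℕ) : ∀ (f : DiamondVertex k → X) (ρ L : ℝ), 0 < ρ →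
      (∀ u v, ρ * (diamondDist k u v : ℝ) ≤ ‖f u - f v‖) →
      (∀ e, ‖f (diamondSrc k e) - f (diamondTgt k e)‖ ≤ L) →
      ρ ^ 2 * (1 + (k : ℝ) / 4) ≤ L ^ 2 := by
  induction k with
  | zero =>
    intro f ρ L hρ hlow hup
    have h1 := hlow (diamondSrc 0 ()) (diamondTgt 0 ())
    have h2 : diamondDist 0 (diamondSrc 0 ()) (diamondTgt 0 ()) = 1 :=
      SimpleGraph.dist_eq_one_iff_adj.mpr (adj_edge 0 ())
    rw [h2] at h1
    have h3 := hup ()
    have h4 : ρ ≤ L := by simpa using h1.trans h3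
    have h5 : ρ ^ 2 ≤ L ^ 2 := pow_le_pow_left₀ hρ.le h4 2
    simpa using h5
  | succ k ih =>
    intro f ρ L hρ hlow hup
    have hL : 0 ≤ 4 * L ^ 2 - ρ ^ 2 := by
      have e : DiamondEdge (k + 1) := by
        have : ∀ n, Nonempty (DiamondEdge n) := by
          intro n
          induction n with
          | zero => exact ⟨()⟩
          | succ n ih => exact ⟨(ih.some, 0, false)⟩
        exact (this _).some
      have h1 := hlow (diamondSrc (k + 1) e) (diamondTgt (k + 1) e)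
      have h2 : diamondDist (k + 1) (diamondSrc (k + 1) e) (diamondTgt (k + 1) e) = 1 :=
        SimpleGraph.dist_eq_one_iff_adj.mpr (adj_edge (k + 1) e)
      rw [h2] at h1
      have h4 : ρ ≤ L := by simpa using h1.trans (hup e)
      nlinarith
    have h := ih (fun u => f (Sum.inl u)) (2 * ρ) (√(4 * L ^ 2 - ρ ^ 2)) (by positivity) ?_ ?_
    · rw [Real.sq_sqrt hL] at h
      push_cast
      nlinarith
    · intro u v
      have h1 := hlow (Sum.inl u) (Sum.inl v)
      have h2 := dist_inl k u v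
      have h3 := mul_le_mul_of_nonneg_left h2 hρ.le
      linarith
    · intro e
      have h1 := diamond_step hA (f (Sum.inl (diamondSrc k e))) (f (Sum.inl (diamondTgt k e)))
        (fun i => f (Sum.inr (e, i))) ρ L hρ ?_ ?_ ?_
      · rw [norm_sub_rev] at h1
        apply Real.le_sqrt_of_sq_le
        linarith
      · intro i
        rw [norm_sub_rev]
        exact hup (e, i, false)
      · intro i
        rw [norm_sub_rev]
        exact hup (e, i, true)
      · intro i j hij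
        have h1 := hlow (Sum.inr (e, i)) (Sum.inr (e, j))
        have h2 := dist_mid k e i j hij
        have h3 := mul_le_mul_of_nonneg_left h2 hρ.le
        linarith

theorem distortion_bound (E : RealBanach) (h : letI := E.normed; letI := E.space; AMP E.X)
    (k : ℕ) (f : DiamondVertex k → E.X) (D : ℝ) (hD : E.HasDistortionLE k f D) :
    1 + (k : ℝ) / 4 ≤ D ^ 2 := by
  let := E.normed
  let := E.space
  obtain ⟨s, hs, hf⟩ := hD
  have h1 := diamond_bound h k f s (D * s) hs (fun u v => (hf u v).1) (fun e => by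
    have h2 := (hf (diamondSrc k e) (diamondTgt k e)).2
    have h3 : diamondDist k (diamondSrc k e) (diamondTgt k e) = 1 :=
      SimpleGraph.dist_eq_one_iff_adj.mpr (adj_edge k e)
    rw [h3] at h2
    simpa using h2)
  have hs2 : 0 < s ^ 2 := by positivity
  have h2 : s ^ 2 * (1 + (k : ℝ) / 4) ≤ s ^ 2 * D ^ 2 := by
    calc s ^ 2 * (1 + (k : ℝ) / 4) ≤ (D * s) ^ 2 := h1
      _ = s ^ 2 * D ^ 2 := by ring
  exact le_of_mul_le_mul_left h2 hs2

end Crest.Agent.Row125
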