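import Mathlib
import Crest.Agent.Row125.Lp2

set_option autoImplicit false

namespace Crest.Agent.Row125

open Crest.AnalysisR Filter Topology

variable {X : ℕ → Type} [∀ n, NormedAddCommGroup (X n)] [∀ n, NormedSpace ℝ (X n)]

theorem AMP_lp (h : ∀ n, AMP (X n)) : AMP (lp X 2) := by
  classical
  intro x η hη
  -- finite approximation
  have h0 := lp.hasSum_single (p := 2) (by norm_num) x
  obtain ⟨s, hs⟩ := (Metric.tendsto_atTop.mp h0) (η / 4) (by positivity)
  have hs := hs s le_rfl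
  set x' : lp X 2 := ∑ i ∈ s, lp.single 2 i (x i) with hx'
  rw [dist_eq_norm] at hs
  have hx'i : ∀ i, i ∉ s → x' i = 0 := by
    intro i hi
    rw [hx', lp.coeFn_sum, Finset.sum_apply]
    refine Finset.sum_eq_zero fun j hj => ?_
    have hij : i ≠ j := fun h => hi (h ▸ hj)
    exact lp.single_apply_ne 2 j (x j) hij
  set η' : ℝ := η / (4 * (s.card + 1)) with hη'
  have hη'0 : 0 < η' := by positivity
  choose S hS1 hS2 hS3 using fun n => h n (x' n) η' hη'0
  -- the subspace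
  let Φ : lp X 2 →ₗ[ℝ] ((i : s) → (X i ⧸ S i)) :=
    LinearMap.pi fun i => (S i).mkQ.comp (lp.evalₗ X 2 (i : ℕ))
  have hmemker : ∀ y : lp X 2, y ∈ LinearMap.ker Φ ↔ ∀ i ∈ s, y i ∈ S i := by
    intro y
    rw [LinearMap.mem_ker]
    constructor
    · intro hy i hi
      have := congrFun hy ⟨i, hi⟩
      simpa [Φ] using this
    · intro hy
      funext i
      simpa [Φ] using hy i.1 i.2
  refine ⟨LinearMap.ker Φ, ?_, ?_, ?_⟩
  · have : (LinearMap.ker Φ : Set (lp X 2)) = ⋂ i ∈ s, {y : lp X 2 | y i ∈ S i} := by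
      ext y
      simp only [SetLike.mem_coe, hmemker, Set.mem_iInter]
      rfl
    rw [this]
    refine isClosed_biInter fun i _ => ?_
    exact (hS1 i).preimage (lp.evalCLM ℝ X 2 i).continuous
  · have hfin : ∀ i : s, FiniteDimensional ℝ (X i ⧸ S i) := fun i => hS2 i
    have h1 : FiniteDimensional ℝ ((i : s) → (X i ⧸ S i)) := inferInstance
    have h2 : FiniteDimensional ℝ (LinearMap.range Φ) := inferInstance
    exact (LinearMap.quotKerEquivRange Φ).symm.finiteDimensional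
  intro y hy
  rw [hmemker] at hy
  -- comparison sequence
  set M : ℝ := √(‖x'‖ ^ 2 + ‖y‖ ^ 2 / 4) with hM
  have hPmem : Memℓp (fun i => √(‖x' i‖ ^ 2 + ‖y i‖ ^ 2 / 4)) 2 := by
    refine memℓp_gen ?_
    have h1 := (hasSum_sq x').summable.add ((hasSum_sq y).summable.div_const 4)
    refine h1.congr fun i => ?_
    have h2 : 0 ≤ ‖x' i‖ ^ 2 + ‖y i‖ ^ 2 / 4 := by positivity
    rw [show (2 : ENNReal).toReal = ((2 : ℕ) : ℝ) by norm_num, Real.rpow_natCast,
      Real.norm_of_nonneg (Real.sqrt_nonneg _), Real.sq_sqrt h2]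
  set Pv : lp (fun _ : ℕ => ℝ) 2 := ⟨_, hPmem⟩ with hPv
  have hPn : ‖Pv‖ = M := by
    have h1 : ‖Pv‖ ^ 2 = ‖x'‖ ^ 2 + ‖y‖ ^ 2 / 4 := by
      rw [norm_sq_eq (X := fun _ => ℝ)]
      have h2 := (hasSum_sq x').add ((hasSum_sq y).div_const 4)
      rw [← h2.tsum_eq]
      congr 1
      funext i
      have h2 : 0 ≤ ‖x' i‖ ^ 2 + ‖y i‖ ^ 2 / 4 := by positivity
      change ‖√(‖x' i‖ ^ 2 + ‖y i‖ ^ 2 / 4)‖ ^ 2 = _
      rw [Real.norm_of_nonneg (Real.sqrt_nonneg _), Real.sq_sqrt h2]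
    rw [hM, ← h1, Real.sqrt_sq (norm_nonneg _)]
  -- error vector
  set Ev : lp (fun _ : ℕ => ℝ) 2 := ∑ i ∈ s, lp.single 2 i (2 * η') with hEv
  have hEn : ‖Ev‖ ≤ s.card * (2 * η') := by
    rw [hEv]
    refine (norm_sum_le _ _).trans ?_
    rw [← nsmul_eq_mul]
    refine Finset.sum_le_card_nsmul _ _ _ fun i _ => ?_
    rw [lp.norm_single (by norm_num), Real.norm_of_nonneg (by positivity)]
  have hEi : ∀ i ∈ s, Ev i = 2 * η' := by
    intro i hi
    rw [hEv, lp.coeFn_sum, Finset.sum_apply, Finset.sum_eq_single_of_mem i hi]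
    · exact lp.single_apply_self 2 i _
    · intro j _ hji
      exact lp.single_apply_ne 2 j _ hji.symm
  have hEi0 : ∀ i, i ∉ s → Ev i = 0 := by
    intro i hi
    rw [hEv, lp.coeFn_sum, Finset.sum_apply]
    refine Finset.sum_eq_zero fun j hj => ?_
    have hij : i ≠ j := fun h => hi (h ▸ hj)
    exact lp.single_apply_ne 2 j _ hij
  have hcomp : 2 * M ≤ (‖x' + y‖ + ‖x' - y‖) + s.card * (2 * η') := by
    have h1 : ‖(2 : ℝ) • Pv‖ ≤ ‖lp.toNorm (x' + y) + lp.toNorm (x' - y) + Ev‖ := by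
      refine lp.norm_mono (by norm_num) fun i => ?_
      have e1 : ((2 : ℝ) • Pv) i = 2 * √(‖x' i‖ ^ 2 + ‖y i‖ ^ 2 / 4) := rfl
      have e2 : (lp.toNorm (x' + y) + lp.toNorm (x' - y) + Ev) i =
          ‖x' i + y i‖ + ‖x' i - y i‖ + Ev i := rfl
      rw [e1, e2, Real.norm_of_nonneg (by positivity)]
      refine le_trans ?_ (le_abs_self _)
      by_cases hi : i ∈ s
      · have h2 := hS3 i (y i) (hy i hi)
        rw [hEi i hi]
        linarith
      · rw [hx'i i hi, hEi0 i hi]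
        have h3 : √(‖(0 : X i)‖ ^ 2 + ‖y i‖ ^ 2 / 4) = ‖y i‖ / 2 := by
          rw [norm_zero, show (0 : ℝ) ^ 2 + ‖y i‖ ^ 2 / 4 = (‖y i‖ / 2) ^ 2 by ring,
            Real.sqrt_sq (by positivity)]
        rw [h3, zero_add, zero_sub, norm_neg]
        linarith [norm_nonneg (y i)]
    rw [norm_smul, hPn, Real.norm_of_nonneg (by norm_num)] at h1
    have h2 : ‖lp.toNorm (x' + y) + lp.toNorm (x' - y) + Ev‖ ≤
        ‖x' + y‖ + ‖x' - y‖ + s.card * (2 * η') := by
      refine (norm_add_le _ _).trans (add_le_add ?_ hEn)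
      refine (norm_add_le _ _).trans ?_
      rw [lp.norm_toNorm, lp.norm_toNorm]
    linarith
  have hcard : (s.card : ℝ) * (2 * η') ≤ η / 2 := by
    rw [hη']
    have : (0 : ℝ) ≤ s.card := Nat.cast_nonneg _
    rw [show (s.card : ℝ) * (2 * (η / (4 * (s.card + 1)))) =
      (s.card / (s.card + 1)) * (η / 2) by field_simp; norm_num]
    have h1 : (s.card : ℝ) / (s.card + 1) ≤ 1 := by
      rw [div_le_one (by positivity)]; linarith
    nlinarith
  have hs' : ‖x - x'‖ < η / 4 := by rw [norm_sub_rev]; exact hs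
  have h1 := sqrt_sq_add_lip ‖x‖ ‖x'‖ ‖y‖ (norm_nonneg _)
  have h2 : |‖x‖ - ‖x'‖| ≤ ‖x - x'‖ := abs_norm_sub_norm_le _ _
  have h3 : ‖x' + y‖ ≤ ‖x + y‖ + ‖x - x'‖ := by
    have : x' + y = (x + y) - (x - x') := by abel
    rw [this]; exact norm_sub_le _ _
  have h4 : ‖x' - y‖ ≤ ‖x - y‖ + ‖x - x'‖ := by
    have : x' - y = (x - y) - (x - x') := by abel
    rw [this]; exact norm_sub_le _ _
  linarith

end Crest.Agent.Row125
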