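import Mathlib

set_option autoImplicit false

namespace Crest.Agent.Row125

open MeasureTheory

/-- truncation. -/
noncomputable def tr (M r : ℝ) : ℝ := max (-M) (min M r)

theorem tr_cases (M r : ℝ) (hM : 0 < M) : (M < r ∧ tr M r = M) ∨ (r < -M ∧ tr M r = -M) ∨
    (|r| ≤ M ∧ tr M r = r) := by
  unfold tr
  rcases lt_or_ge M r with h | h
  · left
    refine ⟨h, ?_⟩
    rw [min_eq_left h.le, max_eq_right (by linarith)]
  · right
    rcases lt_or_ge r (-M) with h2 | h2
    · left
      exact ⟨h2, by rw [min_eq_right h, max_eq_left h2.le]⟩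
    · right
      exact ⟨abs_le.mpr ⟨h2, h⟩, by rw [min_eq_right h, max_eq_right h2]⟩

theorem tr_abs (M r : ℝ) (hM : 0 < M) : |r| = |tr M r| + |r - tr M r| := by
  rcases tr_cases M r hM with ⟨h1, h2⟩ | ⟨h1, h2⟩ | ⟨h1, h2⟩
  · rw [h2, abs_of_pos hM, abs_of_pos (by linarith), abs_of_pos (by linarith)]; ring
  · rw [h2, abs_neg, abs_of_pos hM, abs_of_neg (by linarith), abs_of_neg (by linarith)]; ring
  · rw [h2, sub_self, abs_zero, add_zero]

theorem tr_bound (M r : ℝ) (hM : 0 < M) : |tr M r| ≤ M := by
  rcases tr_cases M r hM with ⟨h1, h2⟩ | ⟨h1, h2⟩ | ⟨h1, h2⟩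
  · rw [h2, abs_of_pos hM]
  · rw [h2, abs_neg, abs_of_pos hM]
  · rw [h2]; exact h1

theorem tr_lip (M r r' : ℝ) : |tr M r - tr M r'| ≤ |r - r'| := by
  unfold tr
  have h1 : |max (-M) (min M r) - max (-M) (min M r')| ≤
      max |(-M) - (-M)| |min M r - min M r'| := abs_max_sub_max_le_max _ _ _ _
  have h2 : |min M r - min M r'| ≤ max |M - M| |r - r'| := abs_min_sub_min_le_max _ _ _ _
  rw [sub_self, abs_zero] at h1 h2
  exact (h1.trans (max_le (abs_nonneg _) le_rfl)).trans (h2.trans (max_le (abs_nonneg _) le_rfl))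

theorem tr_sign (M r : ℝ) (hM : 0 < M) : tr M r * Real.sign r = |tr M r| := by
  rcases lt_trichotomy r 0 with h | h | h
  · rw [Real.sign_of_neg h]
    have : tr M r ≤ 0 := by
      unfold tr
      exact max_le (by linarith) ((min_le_right _ _).trans h.le)
    rw [abs_of_nonpos this]; ring
  · rw [h, Real.sign_zero, mul_zero]
    unfold tr
    rw [min_eq_right hM.le, max_eq_right (by linarith), abs_zero]
  · rw [Real.sign_of_pos h, mul_one]
    have : 0 ≤ tr M r := by
      unfold tr
      exact (le_min hM.le h.le).trans (le_max_right _ _)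
    rw [abs_of_nonneg this]

theorem abs_sign_le (r : ℝ) : |Real.sign r| ≤ 1 := by
  rcases Real.sign_apply_eq r with h | h | h <;> rw [h] <;> simp

theorem measurable_tr (M : ℝ) : Measurable (tr M) := by
  unfold tr; fun_prop

theorem measurable_realSign : Measurable Real.sign := by
  unfold Real.sign
  refine Measurable.ite measurableSet_Iio measurable_const ?_
  exact Measurable.ite measurableSet_Ioi measurable_const measurable_const

theorem pointwise_ineq (M a y g : ℝ) (hM : 0 < M) (ha : 0 < a) :
    |y| ≤ y * Real.sign g + 2 * |y - tr M y| + 2 * a +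
      4 * M * (if a < |y - g| then 1 else 0) := by
  have h1 := tr_abs M y hM
  have h2 := tr_sign M g hM
  have h3 := abs_sign_le g
  have hd : |tr M y - tr M g| ≤ a + 2 * M * (if a < |y - g| then 1 else 0) := by
    split_ifs with h
    · have := tr_bound M y hM
      have := tr_bound M g hM
      have := abs_sub (tr M y) (tr M g)
      linarith
    · have := tr_lip M y g
      push Not at h
      linarith
  have h4 : -|y - tr M y| ≤ (y - tr M y) * Real.sign g := by
    have : |(y - tr M y) * Real.sign g| ≤ |y - tr M y| := by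
      rw [abs_mul]
      nlinarith [abs_nonneg (y - tr M y)]
    linarith [neg_abs_le ((y - tr M y) * Real.sign g)]
  have h5 : -|tr M y - tr M g| ≤ (tr M y - tr M g) * Real.sign g := by
    have : |(tr M y - tr M g) * Real.sign g| ≤ |tr M y - tr M g| := by
      rw [abs_mul]
      nlinarith [abs_nonneg (tr M y - tr M g)]
    linarith [neg_abs_le ((tr M y - tr M g) * Real.sign g)]
  have h6 : |tr M y| ≤ |tr M g| + |tr M y - tr M g| := by
    have : tr M y = tr M g + (tr M y - tr M g) := by ring
    calc |tr M y| = |tr M g + (tr M y - tr M g)| := by rw [← this]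
      _ ≤ _ := abs_add_le _ _
  have h7 : y * Real.sign g = (y - tr M y) * Real.sign g + (tr M y - tr M g) * Real.sign g +
      tr M g * Real.sign g := by ring
  linarith

theorem pointwise_ineq2 (M t x y : ℝ) (hM : 0 < M) (ht : 0 < t) :
    |x| - |x| * (if M < |y| then 1 else 0) + t * |y - tr M y| ≤
      (|x + t * y| + |x - t * y|) / 2 := by
  have h1 : |x| ≤ (|x + t * y| + |x - t * y|) / 2 := by
    have : |(x + t * y) + (x - t * y)| ≤ |x + t * y| + |x - t * y| := abs_add_le _ _
    have h2 : (x + t * y) + (x - t * y) = 2 * x := by ring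
    rw [h2, abs_mul] at this
    norm_num at this
    linarith
  have h2 : t * |y| ≤ (|x + t * y| + |x - t * y|) / 2 := by
    have : |(x + t * y) - (x - t * y)| ≤ |x + t * y| + |x - t * y| := abs_sub _ _
    have h2 : (x + t * y) - (x - t * y) = 2 * (t * y) := by ring
    rw [h2, abs_mul, abs_mul, abs_of_pos ht] at this
    norm_num at this
    linarith
  split_ifs with h
  · have h3 := tr_abs M y hM
    have h4 : |y - tr M y| ≤ |y| := by linarith [abs_nonneg (tr M y)]
    have h5 : t * |y - tr M y| ≤ t * |y| := mul_le_mul_of_nonneg_left h4 ht.le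
    linarith
  · push Not at h
    have h3 : y - tr M y = 0 := by
      rcases tr_cases M y hM with ⟨h1, h2⟩ | ⟨h1, h2⟩ | ⟨h1, h2⟩
      · exfalso; linarith [(abs_le.mp h).2]
      · exfalso; linarith [(abs_le.mp h).1]
      · rw [h2, sub_self]
    rw [h3, abs_zero]
    linarith

variable {Ω : Type} [MeasurableSpace Ω] (P : Measure Ω) [IsProbabilityMeasure P]

theorem R_lower (y g : Ω → ℝ) (hy : Integrable y P) (hym : Measurable y) (hgm : Measurable g)
    (M : ℝ) (hM : 0 < M) (a : ℝ) (ha : 0 < a)
    (hPa : P {z | a < |y z - g z|} < ENNReal.ofReal a)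
    (hs : ∫ z, y z * Real.sign (g z) ∂P = 0) :
    ∫ z, |y z| ∂P ≤ 2 * ∫ z, |y z - tr M (y z)| ∂P + 2 * a * (1 + 2 * M) := by
  have hB : MeasurableSet {z | a < |y z - g z|} :=
    measurableSet_lt measurable_const (by fun_prop)
  have hsg : Integrable (fun z => y z * Real.sign (g z)) P := by
    refine hy.mul_bdd (c := 1) (measurable_realSign.comp hgm).aestronglyMeasurable
      (ae_of_all _ fun z => ?_)
    exact abs_sign_le _
  have htr : Integrable (fun z => y z - tr M (y z)) P := by
    refine hy.mono ?_ (ae_of_all _ fun z => ?_)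
    · exact (hym.sub ((measurable_tr M).comp hym)).aestronglyMeasurable
    · have := tr_abs M (y z) hM
      rw [Real.norm_eq_abs, Real.norm_eq_abs]
      linarith [abs_nonneg (tr M (y z))]
  have hind : Integrable (fun z => if a < |y z - g z| then (1 : ℝ) else 0) P := by
    have : (fun z => if a < |y z - g z| then (1 : ℝ) else 0) =
        Set.indicator {z | a < |y z - g z|} (fun _ => (1 : ℝ)) := by
      ext z; simp [Set.indicator_apply]
    rw [this]
    exact (integrable_const 1).indicator hB
  have hindint : ∫ z, (if a < |y z - g z| then (1 : ℝ) else 0) ∂P ≤ a := by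
    have : (fun z => if a < |y z - g z| then (1 : ℝ) else 0) =
        Set.indicator {z | a < |y z - g z|} (fun _ => (1 : ℝ)) := by
      ext z; simp [Set.indicator_apply]
    rw [this, integral_indicator hB, setIntegral_const, smul_eq_mul, mul_one]
    exact ENNReal.toReal_le_of_le_ofReal ha.le hPa.le
  have hle : ∫ z, |y z| ∂P ≤ ∫ z, (y z * Real.sign (g z) + 2 * |y z - tr M (y z)| + 2 * a +
      4 * M * (if a < |y z - g z| then 1 else 0)) ∂P := by
    refine integral_mono hy.abs ?_ (fun z => pointwise_ineq M a (y z) (g z) hM ha)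
    exact ((hsg.add (htr.abs.const_mul 2)).add (integrable_const _)).add (hind.const_mul _)
  have i1 : Integrable (fun z => y z * Real.sign (g z) + 2 * |y z - tr M (y z)|) P :=
    hsg.add (htr.abs.const_mul 2)
  have i2 : Integrable (fun z => y z * Real.sign (g z) + 2 * |y z - tr M (y z)| + 2 * a) P :=
    i1.add (integrable_const _)
  have i3 : Integrable (fun z => 4 * M * (if a < |y z - g z| then (1 : ℝ) else 0)) P :=
    hind.const_mul _
  have i4 : Integrable (fun z => 2 * |y z - tr M (y z)|) P := htr.abs.const_mul 2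
  rw [integral_add i2 i3, integral_add i1 (integrable_const _),
    integral_add hsg i4, hs, integral_const_mul, integral_const,
    integral_const_mul (4 * M)] at hle
  simp only [probReal_univ, smul_eq_mul, one_mul] at hle
  have : 4 * M * ∫ z, (if a < |y z - g z| then (1 : ℝ) else 0) ∂P ≤ 4 * M * a :=
    mul_le_mul_of_nonneg_left hindint (by positivity)
  linarith

omit [IsProbabilityMeasure P] in
theorem avg_lower (x y : Ω → ℝ) (hx : Integrable x P) (hy : Integrable y P)
    (hym : Measurable y) (M t : ℝ) (hM : 0 < M) (ht : 0 < t) :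
    ∫ z, |x z| ∂P - ∫ z in {z | M < |y z|}, |x z| ∂P + t * ∫ z, |y z - tr M (y z)| ∂P ≤
      (∫ z, |x z + t * y z| ∂P + ∫ z, |x z - t * y z| ∂P) / 2 := by
  have hA : MeasurableSet {z | M < |y z|} := measurableSet_lt measurable_const (by fun_prop)
  have htr : Integrable (fun z => y z - tr M (y z)) P := by
    refine hy.mono ?_ (ae_of_all _ fun z => ?_)
    · exact (hym.sub ((measurable_tr M).comp hym)).aestronglyMeasurable
    · have := tr_abs M (y z) hM
      rw [Real.norm_eq_abs, Real.norm_eq_abs]
      linarith [abs_nonneg (tr M (y z))]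
  have hfun : (fun z => |x z| * (if M < |y z| then (1 : ℝ) else 0)) =
      Set.indicator {z | M < |y z|} (fun z => |x z|) := by
    ext z
    by_cases h : M < |y z| <;> simp [h]
  have hind : Integrable (fun z => |x z| * (if M < |y z| then (1 : ℝ) else 0)) P := by
    rw [hfun]
    exact hx.abs.indicator hA
  have hle : ∫ z, (|x z| - |x z| * (if M < |y z| then 1 else 0) + t * |y z - tr M (y z)|) ∂P ≤
      ∫ z, ((|x z + t * y z| + |x z - t * y z|) / 2) ∂P := by
    refine integral_mono ((hx.abs.sub hind).add (htr.abs.const_mul t)) ?_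
      (fun z => pointwise_ineq2 M t (x z) (y z) hM ht)
    exact ((hx.add (hy.const_mul t)).abs.add (hx.sub (hy.const_mul t)).abs).div_const 2
  have i1 : Integrable (fun z => |x z| - |x z| * (if M < |y z| then (1 : ℝ) else 0)) P :=
    hx.abs.sub hind
  have i2 : Integrable (fun z => t * |y z - tr M (y z)|) P := htr.abs.const_mul t
  have i3 : Integrable (fun z => |x z + t * y z|) P := (hx.add (hy.const_mul t)).abs
  have i4 : Integrable (fun z => |x z - t * y z|) P := (hx.sub (hy.const_mul t)).abs
  rw [integral_add i1 i2, integral_sub hx.abs hind,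
    integral_const_mul, integral_div, integral_add i3 i4] at hle
  rw [hfun, integral_indicator hA] at hle
  exact hle

omit [IsProbabilityMeasure P] in
theorem unif_int (x : Ω → ℝ) (hx : Integrable x P) (η : ℝ) (hη : 0 < η) :
    ∃ M : ℝ, 0 < M ∧ ∀ A : Set Ω, MeasurableSet A → P A ≤ ENNReal.ofReal (1 / M) →
      ∫ z in A, |x z| ∂P ≤ η := by
  have h1 : ∫⁻ z, ‖x z‖ₑ ∂P ≠ ⊤ := hx.2.ne
  obtain ⟨δ, hδ, hA⟩ := exists_pos_setLIntegral_lt_of_measure_lt h1
    (ε := ENNReal.ofReal η) (by simpa using hη)
  obtain ⟨r, hr0, hr⟩ := ENNReal.lt_iff_exists_real_btwn.mp hδ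
  have hr0' : 0 < r := by
    by_contra hcon
    push Not at hcon
    rw [ENNReal.ofReal_of_nonpos hcon] at hr
    exact absurd hr.1 (lt_irrefl _)
  refine ⟨1 / r, by positivity, fun A hAm hPA => ?_⟩
  rw [one_div_one_div] at hPA
  have h2 := hA A (lt_of_le_of_lt hPA hr.2)
  have h3 : ∫ z in A, |x z| ∂P = (∫⁻ z in A, ‖x z‖ₑ ∂P).toReal := by
    rw [← integral_norm_eq_lintegral_enorm hx.1.restrict]
    rfl
  rw [h3]
  exact ENNReal.toReal_le_of_le_ofReal hη.le h2.le

end Crest.Agent.Row125
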